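import Vale.Agent.Lib.P064d.Core

/-!
The bound on embeddings of all graphs: peel the vertices of low degree, then the core count.
-/

namespace Vale.Agent.Lib.P064d

open Finset SimpleGraph Vale.Agent.Lib.P064 Vale.Agent.Lib.P064k
open scoped Classical Nat

set_option linter.unusedSectionVars false
set_option linter.unusedVariables false

universe u v

variable {V : Type v} [Fintype V] {H : SimpleGraph V} {n : ℕ} {q : ℝ}
variable {Z : Type u} [Fintype Z]

/-- Removing a vertex removes its degree from the number of edges. -/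
lemma numEdges_peel (T : SimpleGraph Z) (y : Z) :
    numEdges T = numEdges (T.comap (Subtype.val : {z : Z // z ≠ y} → Z)) +
      (Finset.univ.filter (fun z => T.Adj y z)).card := by
  set T' : SimpleGraph {z : Z // z ≠ y} := T.comap Subtype.val with hT'
  set A : Finset (Sym2 Z) := T'.edgeFinset.image (Sym2.map Subtype.val) with hA
  set C : Finset (Sym2 Z) := (Finset.univ.filter (fun z => T.Adj y z)).image (fun z => s(y, z))
    with hC
  have hU : T.edgeFinset = A ∪ C := by
    ext e
    induction e using Sym2.ind with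
    | _ a b =>
      rw [mem_edgeFinset, Finset.mem_union]
      constructor
      · intro hab
        have hab' : T.Adj a b := hab
        by_cases ha : a = y
        · subst ha
          exact Or.inr (Finset.mem_image.mpr ⟨b, by simpa using hab', rfl⟩)
        · by_cases hb : b = y
          · subst hb
            exact Or.inr (Finset.mem_image.mpr ⟨a, by simpa using hab'.symm, Sym2.eq_swap⟩)
          · refine Or.inl (Finset.mem_image.mpr ⟨s(⟨a, ha⟩, ⟨b, hb⟩), ?_, rfl⟩)
            rw [mem_edgeFinset]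
            exact hab'
      · rintro (h | h)
        · obtain ⟨e', he', h1⟩ := Finset.mem_image.mp h
          rw [mem_edgeFinset] at he'
          induction e' using Sym2.ind with
          | _ a' b' =>
            have h3 : T.Adj a'.1 b'.1 := he'
            have h4 : s(a'.1, b'.1) ∈ T.edgeSet := h3
            have h5 : s(a'.1, b'.1) = s(a, b) := h1
            rw [h5] at h4
            exact h4
        · obtain ⟨z, hz, h1⟩ := Finset.mem_image.mp h
          have h3 : T.Adj y z := (Finset.mem_filter.mp hz).2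
          have h4 : s(y, z) ∈ T.edgeSet := h3
          rw [h1] at h4
          exact h4
  have hD : Disjoint A C := by
    rw [Finset.disjoint_left]
    intro e h1 h2
    obtain ⟨e', he', rfl⟩ := Finset.mem_image.mp h1
    obtain ⟨z, hz, h3⟩ := Finset.mem_image.mp h2
    have hy : y ∈ Sym2.map (Subtype.val : {z : Z // z ≠ y} → Z) e' := by
      rw [← h3]
      exact Sym2.mem_mk_left _ _
    obtain ⟨w, _, hw⟩ := Sym2.mem_map.mp hy
    exact w.2 hw
  have hAc : numEdges T' = A.card := by
    rw [hA, Finset.card_image_of_injective _ (Sym2.map.injective Subtype.val_injective)]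
    unfold numEdges
    rw [← coe_edgeFinset, Set.ncard_coe_finset]
  have hCc : C.card = (Finset.univ.filter (fun z => T.Adj y z)).card := by
    refine Finset.card_image_of_injective _ ?_
    intro a b h
    have h1 : s(y, a) = s(y, b) := h
    rcases Sym2.eq_iff.mp h1 with ⟨_, h2⟩ | ⟨h2, h3⟩
    · exact h2
    · exact h3.trans h2
  rw [numEdges_eq T, hU, Finset.card_union_of_disjoint hD, hAc, hCc]

lemma card_nbrs_peel (T : SimpleGraph Z) (y : Z) :
    ((Finset.univ : Finset {z : Z // z ≠ y}).filter (fun z' => T.Adj y z'.1)).card =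
      (Finset.univ.filter (fun z => T.Adj y z)).card := by
  have h1 : (((Finset.univ : Finset {z : Z // z ≠ y}).filter (fun z' => T.Adj y z'.1)).image
      Subtype.val) = Finset.univ.filter (fun z => T.Adj y z) := by
    ext z
    simp only [Finset.mem_image, Finset.mem_filter, Finset.mem_univ, true_and]
    constructor
    · rintro ⟨a, h2, rfl⟩
      exact h2
    · intro h2
      exact ⟨⟨z, h2.ne'⟩, h2, rfl⟩
  rw [← h1, Finset.card_image_of_injective _ Subtype.val_injective]

/-- One step of peeling. -/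
lemma emb_peel (T : SimpleGraph Z) (y : Z) {c : ℝ}
    (hc : ∀ g ∈ Emb (T.comap (Subtype.val : {z : Z // z ≠ y} → Z)) H Finset.univ,
      ((cn H (((Finset.univ : Finset {z : Z // z ≠ y}).filter
        (fun z' => T.Adj y z'.1)).image g)).card : ℝ) ≤ c) :
    ((Emb T H Finset.univ).card : ℝ) ≤
      ((Emb (T.comap (Subtype.val : {z : Z // z ≠ y} → Z)) H Finset.univ).card : ℝ) * c := by
  set T' : SimpleGraph {z : Z // z ≠ y} := T.comap Subtype.val with hT'
  set Bg : ({z : Z // z ≠ y} → V) → Finset V := fun g =>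
    ((Finset.univ : Finset {z : Z // z ≠ y}).filter (fun z' => T.Adj y z'.1)).image g with hBg
  set S : Finset (Σ _ : ({z : Z // z ≠ y} → V), V) :=
    (Emb T' H Finset.univ).sigma (fun g => cn H (Bg g)) with hS
  have h1 : (Emb T H Finset.univ).card ≤ S.card := by
    refine Finset.card_le_card_of_injOn (fun f => ⟨fun z => f z.val, f y⟩) ?_ ?_
    · intro f hf
      have hf' := Finset.mem_coe.mp hf
      rcases mem_Emb.mp hf' with ⟨h2, h3, _⟩
      refine Finset.mem_coe.mpr (Finset.mem_sigma.mpr ⟨?_, ?_⟩)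
      · refine mem_Emb.mpr ⟨?_, ?_, fun _ => Finset.mem_univ _⟩
        · intro a b hab
          exact Subtype.ext (h2 hab)
        · intro a b hab
          exact h3 _ _ hab
      · rw [mem_cn]
        intro b hb
        obtain ⟨a, ha, rfl⟩ := Finset.mem_image.mp hb
        exact h3 _ _ ((Finset.mem_filter.mp ha).2.symm)
    · intro f _ g _ hfg
      simp only [Sigma.mk.injEq, heq_eq_eq] at hfg
      funext z
      by_cases hz : z = y
      · rw [hz]; exact hfg.2
      · exact congrFun hfg.1 ⟨z, hz⟩
  rw [hS, Finset.card_sigma] at h1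
  calc ((Emb T H Finset.univ).card : ℝ)
      ≤ ∑ g ∈ Emb T' H Finset.univ, ((cn H (Bg g)).card : ℝ) := by exact_mod_cast h1
    _ ≤ ∑ _g ∈ Emb T' H Finset.univ, c := Finset.sum_le_sum hc
    _ = _ := by rw [Finset.sum_const, nsmul_eq_mul]

/-- A copy of `T` in `H` gives the density inequality. -/
lemma one_le_of_emb (hq : 0 < q) (hn : 1 ≤ n) (hyp : ∀ F : H.Subgraph, 1 ≤ expCopies n q F.coe)
    {T : SimpleGraph Z} {σ : Z → V} (hσ : σ ∈ Emb T H Finset.univ) :
    1 ≤ (n : ℝ) ^ Fintype.card Z * q ^ numEdges T := by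
  obtain ⟨h1, h2, _⟩ := mem_Emb.mp hσ
  set E' : Finset (Sym2 V) := T.edgeFinset.image (Sym2.map σ) with hE'
  have hsub : ∀ e ∈ E', e ∈ H.edgeSet := by
    intro e he
    obtain ⟨e', he', rfl⟩ := Finset.mem_image.mp he
    rw [mem_edgeFinset] at he'
    induction e' using Sym2.ind with
    | _ a b => exact h2 a b he'
  have h3 := one_le_of_edges hq hyp E' hsub
  have hc : E'.card = numEdges T := by
    rw [hE', Finset.card_image_of_injective _ (Sym2.map.injective h1), numEdges_eq]
  have hv : (vertsOf E').card ≤ Fintype.card Z := by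
    have h4 : vertsOf E' ⊆ Finset.univ.image σ := by
      intro x hx
      obtain ⟨e, he, hxe⟩ := mem_vertsOf.mp hx
      obtain ⟨e', _, rfl⟩ := Finset.mem_image.mp he
      obtain ⟨y, _, rfl⟩ := Sym2.mem_map.mp hxe
      exact Finset.mem_image_of_mem _ (Finset.mem_univ _)
    exact (Finset.card_le_card h4).trans Finset.card_image_le
  have hn1 : (1 : ℝ) ≤ n := by exact_mod_cast hn
  rw [hc] at h3
  exact h3.trans (mul_le_mul_of_nonneg_right (pow_le_pow_right₀ hn1 hv) (by positivity))

/-- The bound for graphs of minimum degree at least `d`. -/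
lemma core_branch (hn : 1 ≤ n) (hq : 0 < q) (hq1 : q ≤ 1)
    (hyp : ∀ F : H.Subgraph, 1 ≤ expCopies n q F.coe)
    {δ d : ℕ} {M L : ℝ} (hM0 : 0 < M) (hδM : (δ : ℝ) ≤ M)
    (hcn : ∀ B : Finset V, ((cn H B).card : ℝ) * q ^ (d - B.card) ≤ M)
    {rk : V → ℕ} (hrk : Function.Injective rk)
    (hout : ∀ u, (Finset.univ.filter (fun w => H.Adj u w ∧ rk u < rk w)).card ≤ δ)
    (hL2 : 2 ≤ L) (hL : (M / q) ^ 2 ≤ (L / 2) ^ d)
    {T : SimpleGraph Z} (hmin : ∀ y, d ≤ (Finset.univ.filter (fun z => T.Adj y z)).card) :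
    ((Emb T H Finset.univ).card : ℝ) ≤ (9 * (n : ℝ)) ^ Fintype.card Z * (L * q) ^ numEdges T := by
  have hn0 : (0 : ℝ) < n := by exact_mod_cast hn
  have hL0 : 0 < L := by linarith
  by_cases hne : (Emb T H Finset.univ).Nonempty
  swap
  · rw [Finset.not_nonempty_iff_eq_empty] at hne
    rw [hne]
    simp only [Finset.card_empty, Nat.cast_zero]
    positivity
  obtain ⟨σ, hσ⟩ := hne
  have hone := one_le_of_emb hq hn hyp hσ
  have h1 := emb_orient hq hq1 hM0 hδM hcn hrk hout hmin
  set v := Fintype.card Z with hv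
  set e := numEdges T with he
  have hdv : d * v ≤ 2 * e := by
    have hsum := T.sum_degrees_eq_twice_card_edges
    rw [← numEdges_eq] at hsum
    rw [← hsum]
    have hdeg : ∀ z : Z, d ≤ T.degree z := by
      intro z
      refine (hmin z).trans ?_
      rw [← card_neighborFinset_eq_degree]
      refine Finset.card_le_card ?_
      intro w hw
      rw [mem_neighborFinset]
      exact (Finset.mem_filter.mp hw).2
    calc d * v = ∑ _z : Z, d := by
          rw [Finset.sum_const, Finset.card_univ, smul_eq_mul, mul_comm]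
      _ ≤ _ := Finset.sum_le_sum (fun z _ => hdeg z)
  set A := M / q with hA
  have hA0 : 0 < A := by positivity
  set B := L / 2 with hB
  have hB1 : 1 ≤ B := by
    rw [hB]
    linarith
  have hAB : A ^ v ≤ B ^ e := by
    have h2 : (A ^ v) ^ 2 ≤ (B ^ e) ^ 2 := by
      calc (A ^ v) ^ 2 = (A ^ 2) ^ v := by rw [← pow_mul, ← pow_mul, mul_comm]
        _ ≤ (B ^ d) ^ v := pow_le_pow_left₀ (by positivity) hL v
        _ = B ^ (d * v) := by rw [← pow_mul]
        _ ≤ B ^ (2 * e) := pow_le_pow_right₀ hB1 hdv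
        _ = (B ^ e) ^ 2 := by rw [← pow_mul, mul_comm]
    exact (pow_le_pow_iff_left₀ (by positivity) (by positivity) (by norm_num)).mp h2
  have h9 : (n : ℝ) ^ v ≤ (9 * (n : ℝ)) ^ v :=
    pow_le_pow_left₀ hn0.le (by linarith) v
  calc ((Emb T H Finset.univ).card : ℝ) ≤ 2 ^ e * A ^ v := h1
    _ ≤ 2 ^ e * B ^ e := mul_le_mul_of_nonneg_left hAB (by positivity)
    _ = L ^ e := by
        rw [← mul_pow, hB]
        congr 1
        ring
    _ ≤ L ^ e * ((n : ℝ) ^ v * q ^ e) := le_mul_of_one_le_right (by positivity) hone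
    _ = (n : ℝ) ^ v * (L * q) ^ e := by rw [mul_pow]; ring
    _ ≤ _ := mul_le_mul_of_nonneg_right h9 (by positivity)

/-- The bound on embeddings of all graphs. -/
theorem emb_main (hn : 1 ≤ n) (hq : 0 < q) (hq1 : q ≤ 1) (hV : Fintype.card V ≤ n)
    (hyp : ∀ F : H.Subgraph, 1 ≤ expCopies n q F.coe)
    {δ d : ℕ} {M L : ℝ} (hδ : (n : ℝ) ^ 2 * q ^ (δ + 1) < 1) (hP : Param n q d M)
    (hM0 : 0 < M) (hδM : (δ : ℝ) ≤ M) (hL2 : 2 ≤ L) (hL : (M / q) ^ 2 ≤ (L / 2) ^ d) :
    ∀ (k : ℕ) (Z : Type u) [Fintype Z] (T : SimpleGraph Z), Fintype.card Z = k →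
      ((Emb T H Finset.univ).card : ℝ) ≤ (9 * (n : ℝ)) ^ k * (L * q) ^ numEdges T := by
  obtain ⟨rk, hrk, hout⟩ := exists_rank hq hq1 hn hyp hδ
  have hcn := cn_unif hq hq1 hn hV hyp hP
  have hn0 : (0 : ℝ) < n := by exact_mod_cast hn
  have hL0 : 0 < L := by linarith
  intro k
  induction k with
  | zero =>
    intro Z _ T hZ
    have hE : IsEmpty Z := Fintype.card_eq_zero_iff.mp hZ
    have := core_branch hn hq hq1 hyp hM0 hδM hcn hrk hout hL2 hL (T := T) (fun y => hE.elim y)
    rwa [hZ] at this
  | succ k ih =>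
    intro Z _ T hZ
    by_cases hlow : ∃ y, (Finset.univ.filter (fun z => T.Adj y z)).card < d
    · obtain ⟨y, hy⟩ := hlow
      set Z' := {z : Z // z ≠ y} with hZ'
      set T' : SimpleGraph Z' := T.comap Subtype.val with hT'
      have hZ'card : Fintype.card Z' = k := by
        have h1 : Fintype.card {z : Z // z ≠ y} = Fintype.card Z - 1 := by
          have h2 : Fintype.card {z : Z // z ≠ y} = (Finset.univ.erase y).card := by
            rw [Fintype.card_subtype]
            congr 1
            ext z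
            simp
          rw [h2, Finset.card_erase_of_mem (Finset.mem_univ _), Finset.card_univ]
        rw [hZ, Nat.add_sub_cancel] at h1
        convert h1 using 1
      set D := (Finset.univ.filter (fun z => T.Adj y z)).card with hD
      have hih := ih Z' T' hZ'card
      have hedges : numEdges T = numEdges T' + D := numEdges_peel T y
      have hc : ∀ g ∈ Emb T' H Finset.univ,
          ((cn H (((Finset.univ : Finset {z : Z // z ≠ y}).filter
            (fun z' => T.Adj y z'.1)).image g)).card : ℝ) ≤ 9 * n * q ^ D := by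
        intro g hg
        have hg' := (mem_Emb.mp hg).1
        have h1 : (((Finset.univ : Finset {z : Z // z ≠ y}).filter
            (fun z' => T.Adj y z'.1)).image g).card = D := by
          rw [Finset.card_image_of_injective _ hg', card_nbrs_peel]
        have h2 := cn_low hq hn hV hyp hP (B := ((Finset.univ : Finset {z : Z // z ≠ y}).filter
            (fun z' => T.Adj y z'.1)).image g) (by rw [h1]; exact hy)
        rwa [h1] at h2
      have h3 := emb_peel T y hc
      have hqL : q ≤ L * q := by nlinarith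
      have hqD : q ^ D ≤ (L * q) ^ D := pow_le_pow_left₀ hq.le hqL D
      calc ((Emb T H Finset.univ).card : ℝ) ≤ ((Emb T' H Finset.univ).card : ℝ) * (9 * n * q ^ D) := h3
        _ ≤ ((9 * (n : ℝ)) ^ k * (L * q) ^ numEdges T') * (9 * n * q ^ D) :=
            mul_le_mul_of_nonneg_right hih (by positivity)
        _ ≤ ((9 * (n : ℝ)) ^ k * (L * q) ^ numEdges T') * (9 * n * (L * q) ^ D) := by
            apply mul_le_mul_of_nonneg_left _ (by positivity)
            exact mul_le_mul_of_nonneg_left hqD (by positivity)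
        _ = _ := by
            rw [hedges, pow_add, pow_succ]
            ring
    · push Not at hlow
      have := core_branch hn hq hq1 hyp hM0 hδM hcn hrk hout hL2 hL hlow
      rwa [hZ] at this

/-- The bound in the form needed for the spread lemma. -/
theorem emb_bound (hn : 1 ≤ n) (hq : 0 < q) (hq1 : q ≤ 1) (hV : Fintype.card V ≤ n)
    (hyp : ∀ F : H.Subgraph, 1 ≤ expCopies n q F.coe)
    {δ d : ℕ} {M L : ℝ} (hδ : (n : ℝ) ^ 2 * q ^ (δ + 1) < 1) (hP : Param n q d M)
    (hM0 : 0 < M) (hδM : (δ : ℝ) ≤ M) (hL2 : 2 ≤ L) (hL : (M / q) ^ 2 ≤ (L / 2) ^ d)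
    (F : SimpleGraph Z) :
    ((Emb F H Finset.univ).card : ℝ) ≤ (n.descFactorial (Fintype.card Z) : ℝ) *
      (729 * (L * q)) ^ numEdges F := by
  have hL0 : 0 < L := by linarith
  refine emb_strip (by positivity) hV (fun Z _ F hno => ?_) (Fintype.card Z) Z F rfl
  have h1 := emb_main hn hq hq1 hV hyp hδ hP hM0 hδM hL2 hL (Fintype.card Z) Z F rfl
  set e := numEdges F with he
  set v := Fintype.card Z with hv
  have hve : v ≤ 2 * e := card_le_two_edges F hno
  by_cases hvn : v ≤ n
  swap
  · have h0 : Emb F H Finset.univ = ∅ := by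
      refine Finset.eq_empty_of_forall_notMem fun f hf => ?_
      rcases mem_Emb.mp hf with ⟨h2, _, _⟩
      have := Fintype.card_le_of_injective f h2
      omega
    rw [h0]
    simp only [Finset.card_empty, Nat.cast_zero]
    positivity
  have h2 := pow_le_three_desc hvn
  have hdn : (0 : ℝ) ≤ (n.descFactorial v : ℝ) := by positivity
  have h27 : (27 : ℝ) ^ v ≤ 729 ^ e := by
    have : (729 : ℝ) ^ e = 27 ^ (2 * e) := by
      rw [pow_mul]; norm_num
    rw [this]
    exact pow_le_pow_right₀ (by norm_num) hve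
  have h3 : (9 * (n : ℝ)) ^ v ≤ 729 ^ e * (n.descFactorial v : ℝ) := by
    calc (9 * (n : ℝ)) ^ v = 9 ^ v * (n : ℝ) ^ v := mul_pow _ _ _
      _ ≤ 9 ^ v * (3 ^ v * (n.descFactorial v : ℝ)) := mul_le_mul_of_nonneg_left h2 (by positivity)
      _ = 27 ^ v * (n.descFactorial v : ℝ) := by rw [← mul_assoc, ← mul_pow]; norm_num
      _ ≤ _ := mul_le_mul_of_nonneg_right h27 hdn
  calc ((Emb F H Finset.univ).card : ℝ) ≤ (9 * (n : ℝ)) ^ v * (L * q) ^ e := h1
    _ ≤ (729 ^ e * (n.descFactorial v : ℝ)) * (L * q) ^ e :=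
        mul_le_mul_of_nonneg_right h3 (by positivity)
    _ = _ := by rw [mul_pow 729 (L * q) e]; ring

end Vale.Agent.Lib.P064d
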