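import Vale.Agent.Lib.P064k.MainUni

/-!
Common neighbours in a host graph whose subgraphs all have expected count at least one.
-/

namespace Vale.Agent.Lib.P064d

open Finset SimpleGraph Vale.Agent.Lib.P064 Vale.Agent.Lib.P064k
open scoped Classical Nat

set_option linter.unusedSectionVars false
set_option linter.unusedVariables false

universe u v

variable {V : Type v} [Fintype V] {H : SimpleGraph V} {n : ℕ} {q : ℝ}

/-- The common neighbours of a set of vertices. -/
noncomputable def cn (H : SimpleGraph V) (B : Finset V) : Finset V :=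
  Finset.univ.filter (fun y => ∀ b ∈ B, H.Adj b y)

lemma mem_cn {B : Finset V} {y : V} : y ∈ cn H B ↔ ∀ b ∈ B, H.Adj b y := by
  simp [cn]

lemma cn_anti {B B' : Finset V} (h : B' ⊆ B) : cn H B ⊆ cn H B' := by
  intro y hy
  rw [mem_cn] at hy ⊢
  exact fun b hb => hy b (h hb)

/-- The edges of the complete bipartite graph between `B` and `T`. -/
noncomputable def kEdges (B T : Finset V) : Finset (Sym2 V) :=
  (B ×ˢ T).image (fun p => s(p.1, p.2))

lemma mem_kEdges {B T : Finset V} {a b : V} :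
    s(a, b) ∈ kEdges B T ↔ (a ∈ B ∧ b ∈ T) ∨ (a ∈ T ∧ b ∈ B) := by
  unfold kEdges
  constructor
  · intro h
    obtain ⟨p, hp, h1⟩ := Finset.mem_image.mp h
    obtain ⟨h2, h3⟩ := Finset.mem_product.mp hp
    rcases Sym2.eq_iff.mp h1 with ⟨rfl, rfl⟩ | ⟨rfl, rfl⟩
    · exact Or.inl ⟨h2, h3⟩
    · exact Or.inr ⟨h3, h2⟩
  · rintro (⟨h1, h2⟩ | ⟨h1, h2⟩)
    · exact Finset.mem_image.mpr ⟨(a, b), Finset.mem_product.mpr ⟨h1, h2⟩, rfl⟩
    · exact Finset.mem_image.mpr ⟨(b, a), Finset.mem_product.mpr ⟨h2, h1⟩, Sym2.eq_swap⟩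

lemma disj_of_sub {B T : Finset V} (hT : T ⊆ cn H B) : ∀ x ∈ B, x ∉ T := by
  intro x hx hxT
  have := mem_cn.mp (hT hxT) x hx
  exact H.loopless.irrefl x this

lemma kEdges_card {B T : Finset V} (hT : T ⊆ cn H B) : (kEdges B T).card = B.card * T.card := by
  unfold kEdges
  rw [Finset.card_image_of_injOn, Finset.card_product]
  rintro ⟨a, b⟩ h1 ⟨c, d⟩ h2 h3
  have h1' := Finset.mem_product.mp (Finset.mem_coe.mp h1)
  have h2' := Finset.mem_product.mp (Finset.mem_coe.mp h2)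
  rcases Sym2.eq_iff.mp h3 with ⟨h4, h5⟩ | ⟨h4, h5⟩
  · simp_all
  · exfalso
    exact disj_of_sub hT a h1'.1 (by simp only at h4; rw [h4]; exact h2'.2)

lemma kEdges_sub {B T : Finset V} (hT : T ⊆ cn H B) : ∀ e ∈ kEdges B T, e ∈ H.edgeSet := by
  intro e he
  obtain ⟨p, hp, rfl⟩ := Finset.mem_image.mp he
  obtain ⟨h2, h3⟩ := Finset.mem_product.mp hp
  exact mem_cn.mp (hT h3) _ h2

/-- Permutations of `T` give automorphisms of the complete bipartite graph. -/
lemma fact_le_aut {B T : Finset V} (hT : T ⊆ cn H B) (hB : B.Nonempty) :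
    T.card ! ≤ Nat.card ((subOfEdges H (kEdges B T) (kEdges_sub hT)).coe ≃g
      (subOfEdges H (kEdges B T) (kEdges_sub hT)).coe) := by
  set J := subOfEdges H (kEdges B T) (kEdges_sub hT) with hJ
  have hdisj := disj_of_sub hT
  have hTv : ∀ x ∈ T, x ∈ J.verts := by
    intro x hx
    obtain ⟨b, hb⟩ := hB
    exact Finset.mem_coe.mpr (mem_vertsOf.mpr ⟨s(b, x), mem_kEdges.mpr (Or.inl ⟨hb, hx⟩),
      Sym2.mem_mk_right b x⟩)
  -- the action
  have hg_T : ∀ (π : Equiv.Perm {x // x ∈ T}) (x : V), x ∈ T →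
      Equiv.Perm.ofSubtype π x ∈ T := by
    intro π x hx
    rw [Equiv.Perm.ofSubtype_apply_of_mem π hx]
    exact (π ⟨x, hx⟩).2
  have hg_N : ∀ (π : Equiv.Perm {x // x ∈ T}) (x : V), x ∉ T →
      Equiv.Perm.ofSubtype π x = x := by
    intro π x hx
    exact Equiv.Perm.ofSubtype_apply_of_not_mem π hx
  have hAdj : ∀ (π : Equiv.Perm {x // x ∈ T}) (a b : V), J.Adj a b →
      J.Adj (Equiv.Perm.ofSubtype π a) (Equiv.Perm.ofSubtype π b) := by
    intro π a b hab
    have h1 : s(a, b) ∈ kEdges B T := hab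
    show s(Equiv.Perm.ofSubtype π a, Equiv.Perm.ofSubtype π b) ∈ kEdges B T
    rcases mem_kEdges.mp h1 with ⟨h2, h3⟩ | ⟨h2, h3⟩
    · rw [hg_N π a (hdisj a h2)]
      exact mem_kEdges.mpr (Or.inl ⟨h2, hg_T π b h3⟩)
    · rw [hg_N π b (hdisj b h3)]
      exact mem_kEdges.mpr (Or.inr ⟨hg_T π a h2, h3⟩)
  have hVert : ∀ (π : Equiv.Perm {x // x ∈ T}) (x : V), x ∈ J.verts →
      Equiv.Perm.ofSubtype π x ∈ J.verts := by
    intro π x hx
    by_cases hxT : x ∈ T
    · exact hTv _ (hg_T π x hxT)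
    · rw [hg_N π x hxT]; exact hx
  have hinv : ∀ (π : Equiv.Perm {x // x ∈ T}) (x : V),
      Equiv.Perm.ofSubtype π⁻¹ (Equiv.Perm.ofSubtype π x) = x := by
    intro π x
    rw [← Equiv.Perm.mul_apply, ← map_mul]
    simp
  have hinv2 : ∀ (π : Equiv.Perm {x // x ∈ T}) (x : V),
      Equiv.Perm.ofSubtype π (Equiv.Perm.ofSubtype π⁻¹ x) = x := by
    intro π x
    rw [← Equiv.Perm.mul_apply, ← map_mul]
    simp
  let Φ : Equiv.Perm {x // x ∈ T} → (J.coe ≃g J.coe) := fun π =>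
    { toFun := fun a => ⟨Equiv.Perm.ofSubtype π a.1, hVert π a.1 a.2⟩
      invFun := fun a => ⟨Equiv.Perm.ofSubtype π⁻¹ a.1, hVert π⁻¹ a.1 a.2⟩
      left_inv := fun a => Subtype.ext (hinv π a.1)
      right_inv := fun a => Subtype.ext (hinv2 π a.1)
      map_rel_iff' := by
        intro a b
        constructor
        · intro h
          have h1 : J.Adj (Equiv.Perm.ofSubtype π a.1) (Equiv.Perm.ofSubtype π b.1) := h
          have h2 := hAdj π⁻¹ _ _ h1
          rw [hinv, hinv] at h2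
          exact h2
        · intro h
          exact hAdj π a.1 b.1 h }
  have hinj : Function.Injective Φ := by
    intro π₁ π₂ h
    ext x
    have h1 := congrArg (fun e : J.coe ≃g J.coe => (e ⟨x.1, hTv x.1 x.2⟩).1) h
    simp only [Φ] at h1
    have h2 : Equiv.Perm.ofSubtype π₁ x.1 = Equiv.Perm.ofSubtype π₂ x.1 := h1
    rw [Equiv.Perm.ofSubtype_apply_of_mem π₁ x.2, Equiv.Perm.ofSubtype_apply_of_mem π₂ x.2] at h2
    simpa using h2
  haveI : Finite (J.coe ≃g J.coe) := by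
    refine Finite.of_injective (fun e => (e.toEquiv : J.verts ≃ J.verts)) ?_
    intro e₁ e₂ h
    ext x
    exact congrArg (fun g : J.verts ≃ J.verts => (g x).1) h
  have h1 := Nat.card_le_card_of_injective Φ hinj
  have h2 : Nat.card (Equiv.Perm {x // x ∈ T}) = T.card ! := by
    rw [Nat.card_eq_fintype_card, Fintype.card_perm, Fintype.card_coe]
  rwa [h2] at h1

/-- The factorial bound for common neighbours. -/
lemma fact_le (hq : 0 < q) (hn : 1 ≤ n) (hyp : ∀ F : H.Subgraph, 1 ≤ expCopies n q F.coe)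
    {B T : Finset V} (hT : T ⊆ cn H B) (hB : B.Nonempty) :
    (T.card ! : ℝ) ≤ (n : ℝ) ^ B.card * ((n : ℝ) * q ^ B.card) ^ T.card := by
  set J := subOfEdges H (kEdges B T) (kEdges_sub hT) with hJ
  have h1 := aut_le_desc hq J (hyp J)
  have h2 : ((T.card ! : ℕ) : ℝ) ≤ (Nat.card (J.coe ≃g J.coe) : ℝ) := by
    exact_mod_cast fact_le_aut hT hB
  have hn1 : (1 : ℝ) ≤ n := by exact_mod_cast hn
  have he : numEdges J.coe = B.card * T.card := by
    rw [numEdges_coe, hJ, subOfEdges_edgeSet, Set.ncard_coe_finset, kEdges_card hT]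
  have hv : Fintype.card J.verts ≤ B.card + T.card := by
    have hZ : Fintype.card J.verts = (vertsOf (kEdges B T)).card :=
      Fintype.card_of_subtype (p := fun x => x ∈ J.verts) (vertsOf (kEdges B T)) (fun x => Iff.rfl)
    rw [hZ]
    have hsub : vertsOf (kEdges B T) ⊆ B ∪ T := by
      intro x hx
      obtain ⟨e, he, hxe⟩ := mem_vertsOf.mp hx
      obtain ⟨p, hp, rfl⟩ := Finset.mem_image.mp he
      obtain ⟨h2, h3⟩ := Finset.mem_product.mp hp
      rcases Sym2.mem_iff.mp hxe with rfl | rfl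
      · exact Finset.mem_union_left _ h2
      · exact Finset.mem_union_right _ h3
    exact (Finset.card_le_card hsub).trans (Finset.card_union_le _ _)
  have h3 : ((n.descFactorial (Fintype.card J.verts) : ℕ) : ℝ) ≤ (n : ℝ) ^ (B.card + T.card) := by
    have h4 : n.descFactorial (Fintype.card J.verts) ≤ n ^ (Fintype.card J.verts) :=
      Nat.descFactorial_le_pow _ _
    calc ((n.descFactorial (Fintype.card J.verts) : ℕ) : ℝ) ≤ (n : ℝ) ^ (Fintype.card J.verts) := by
          exact_mod_cast h4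
      _ ≤ _ := pow_le_pow_right₀ hn1 hv
  calc (T.card ! : ℝ) ≤ _ := h2
    _ ≤ _ := h1
    _ ≤ (n : ℝ) ^ (B.card + T.card) * q ^ numEdges J.coe :=
        mul_le_mul_of_nonneg_right h3 (by positivity)
    _ = _ := by
        rw [he, mul_pow, pow_add, ← pow_mul]
        ring

/-- A dichotomy from `t! ≤ n^s a^t`. -/
lemma dichotomy {t s : ℕ} {a : ℝ} (hn : 1 ≤ n) (ha : 0 < a)
    (h : (t ! : ℝ) ≤ (n : ℝ) ^ s * a ^ t) : (t : ℝ) ≤ 9 * a ∨ (t : ℝ) ≤ s * Real.log n := by
  by_contra hcon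
  push Not at hcon
  obtain ⟨h1, h2⟩ := hcon
  have hn0 : (0 : ℝ) < n := by exact_mod_cast hn
  have ht0 : (0 : ℝ) ≤ t := Nat.cast_nonneg t
  have h3 := Real.pow_div_factorial_le_exp (t : ℝ) ht0 t
  have hfac : (0 : ℝ) < (t ! : ℝ) := by exact_mod_cast Nat.factorial_pos t
  rw [div_le_iff₀ hfac] at h3
  -- `e ^ 2 ≤ 9`
  have he : Real.exp 1 * Real.exp 1 ≤ 9 := by
    have h4 := Real.exp_one_lt_d9
    have h5 := Real.exp_pos 1
    nlinarith
  have hexp : Real.exp (t : ℝ) = Real.exp 1 ^ t := by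
    rw [← Real.exp_nat_mul]
    simp
  have h6 : (Real.exp 1 * Real.exp 1 * a) ^ t ≤ (t : ℝ) ^ t := by
    apply pow_le_pow_left₀ (by positivity)
    nlinarith
  rw [hexp] at h3
  have h7 : Real.exp 1 ^ t * (Real.exp 1 ^ t * a ^ t) ≤ (n : ℝ) ^ s * a ^ t * Real.exp 1 ^ t := by
    calc Real.exp 1 ^ t * (Real.exp 1 ^ t * a ^ t)
        = (Real.exp 1 * Real.exp 1 * a) ^ t := by rw [mul_pow, mul_pow]; ring
      _ ≤ (t : ℝ) ^ t := h6
      _ ≤ Real.exp 1 ^ t * (t ! : ℝ) := h3
      _ ≤ Real.exp 1 ^ t * ((n : ℝ) ^ s * a ^ t) := mul_le_mul_of_nonneg_left h (by positivity)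
      _ = _ := by ring
  have hat : 0 < a ^ t := by positivity
  have het : 0 < Real.exp 1 ^ t := by positivity
  have h8 : Real.exp 1 ^ t ≤ (n : ℝ) ^ s := by
    have h9 : Real.exp 1 ^ t * (Real.exp 1 ^ t * a ^ t) = Real.exp 1 ^ t * (Real.exp 1 ^ t * a ^ t) := rfl
    have h10 : (Real.exp 1 ^ t) * (Real.exp 1 ^ t * a ^ t) ≤ (n : ℝ) ^ s * (Real.exp 1 ^ t * a ^ t) := by
      calc _ ≤ _ := h7
        _ = _ := by ring
    exact le_of_mul_le_mul_right h10 (by positivity)
  rw [← hexp] at h8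
  have h11 : (t : ℝ) ≤ Real.log ((n : ℝ) ^ s) := by
    rwa [Real.le_log_iff_exp_le (by positivity)]
  rw [Real.log_pow] at h11
  linarith

/-- The parameters of the proof: `d` is the first depth at which the bound on common neighbours
saturates. -/
structure Param (n : ℕ) (q : ℝ) (d : ℕ) (M : ℝ) : Prop where
  hd1 : 1 ≤ d
  hdmin : ∀ s : ℕ, 1 ≤ s → s < d → (s : ℝ) * Real.log n < 9 * n * q ^ s
  hd2 : 9 * (n : ℝ) * q ^ d ≤ d * Real.log n
  hM1 : (d : ℝ) * Real.log n ≤ M

/-- Few common neighbours below the saturation depth. -/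
lemma cn_low (hq : 0 < q) (hn : 1 ≤ n) (hV : Fintype.card V ≤ n)
    (hyp : ∀ F : H.Subgraph, 1 ≤ expCopies n q F.coe) {d : ℕ} {M : ℝ} (hP : Param n q d M)
    {B : Finset V} (hB : B.card < d) :
    ((cn H B).card : ℝ) ≤ 9 * n * q ^ B.card := by
  have hn0 : (0 : ℝ) < n := by exact_mod_cast hn
  by_cases hB0 : B.Nonempty
  · have h1 := fact_le hq hn hyp (subset_refl (cn H B)) hB0
    have ha : 0 < (n : ℝ) * q ^ B.card := by positivity
    rcases dichotomy hn ha h1 with h2 | h2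
    · calc _ ≤ _ := h2
        _ = _ := by ring
    · have h3 := hP.hdmin B.card (Finset.card_pos.mpr hB0) hB
      linarith
  · rw [Finset.not_nonempty_iff_eq_empty] at hB0
    subst hB0
    have h1 : ((cn H ∅).card : ℝ) ≤ n := by
      have h2 : (cn H ∅).card ≤ Fintype.card V := Finset.card_le_univ _
      exact_mod_cast h2.trans hV
    simp only [Finset.card_empty, pow_zero, mul_one]
    linarith

/-- The uniform bound on common neighbours. -/
lemma cn_unif (hq : 0 < q) (hq1 : q ≤ 1) (hn : 1 ≤ n) (hV : Fintype.card V ≤ n)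
    (hyp : ∀ F : H.Subgraph, 1 ≤ expCopies n q F.coe) {d : ℕ} {M : ℝ} (hP : Param n q d M)
    (B : Finset V) : ((cn H B).card : ℝ) * q ^ (d - B.card) ≤ M := by
  have hn0 : (0 : ℝ) < n := by exact_mod_cast hn
  by_cases hB : B.card < d
  · have h1 := cn_low hq hn hV hyp hP hB
    calc ((cn H B).card : ℝ) * q ^ (d - B.card)
        ≤ (9 * n * q ^ B.card) * q ^ (d - B.card) := mul_le_mul_of_nonneg_right h1 (by positivity)
      _ = 9 * n * q ^ d := by
          rw [mul_assoc, ← pow_add]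
          congr 2
          omega
      _ ≤ _ := hP.hd2
      _ ≤ _ := hP.hM1
  · push Not at hB
    have h0 : d - B.card = 0 := by omega
    rw [h0, pow_zero, mul_one]
    obtain ⟨B', hB', hc⟩ := Finset.exists_subset_card_eq hB
    have hB'0 : B'.Nonempty := by
      rw [← Finset.card_pos, hc]
      exact hP.hd1
    have h1 := fact_le hq hn hyp (subset_refl (cn H B')) hB'0
    have ha : 0 < (n : ℝ) * q ^ B'.card := by positivity
    have h2 : ((cn H B').card : ℝ) ≤ d * Real.log n := by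
      rcases dichotomy hn ha h1 with h2 | h2
      · rw [hc] at h2
        calc _ ≤ _ := h2
          _ = 9 * (n : ℝ) * q ^ d := by ring
          _ ≤ _ := hP.hd2
      · rwa [hc] at h2
    have h3 : ((cn H B).card : ℝ) ≤ (cn H B').card := by
      exact_mod_cast Finset.card_le_card (cn_anti hB')
    linarith [hP.hM1]

end Vale.Agent.Lib.P064d
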