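import Vale.Agent.Lib.P064d.Order

/-!
The count of embeddings of a graph of large minimum degree, through the orientation of the edges
which the degeneracy order of the host pulls back.
-/

namespace Vale.Agent.Lib.P064d

open Finset SimpleGraph Vale.Agent.Lib.P064 Vale.Agent.Lib.P064k
open scoped Classical Nat

set_option linter.unusedSectionVars false
set_option linter.unusedVariables false

universe u v

variable {V : Type v} [Fintype V] {H : SimpleGraph V} {n : ℕ} {q : ℝ}
variable {Z : Type u} [Fintype Z]

/-- The embeddings which pull back the order `rk` to the relation `R` on edges. -/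
noncomputable def cls (T : SimpleGraph Z) (H : SimpleGraph V) (rk : V → ℕ) (R : Z → Z → Prop) :
    Finset (Z → V) :=
  (Emb T H Finset.univ).filter (fun σ => ∀ x y, T.Adj x y → (R x y ↔ rk (σ x) < rk (σ y)))

/-- Those which extend a given map on `P`. -/
noncomputable def st (T : SimpleGraph Z) (H : SimpleGraph V) (rk : V → ℕ) (R : Z → Z → Prop)
    (P : Finset Z) (f : Z → V) : Finset (Z → V) :=
  (cls T H rk R).filter (fun σ => ∀ x ∈ P, σ x = f x)

/-- The vertices outside `P` with an in-neighbour in `P`. -/
noncomputable def pre (T : SimpleGraph Z) (R : Z → Z → Prop) (P : Finset Z) : Finset Z :=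
  Pᶜ.filter (fun z => ∃ w ∈ P, T.Adj w z ∧ R w z)

lemma mem_st {T : SimpleGraph Z} {rk : V → ℕ} {R : Z → Z → Prop} {P : Finset Z} {f σ : Z → V} :
    σ ∈ st T H rk R P f ↔ (Function.Injective σ ∧ (∀ a b, T.Adj a b → H.Adj (σ a) (σ b))) ∧
      (∀ x y, T.Adj x y → (R x y ↔ rk (σ x) < rk (σ y))) ∧ ∀ x ∈ P, σ x = f x := by
  unfold st cls
  rw [Finset.mem_filter, Finset.mem_filter, mem_Emb]
  constructor
  · rintro ⟨⟨⟨h1, h2, _⟩, h3⟩, h4⟩
    exact ⟨⟨h1, h2⟩, h3, h4⟩
  · rintro ⟨⟨h1, h2⟩, h3, h4⟩
    exact ⟨⟨⟨h1, h2, fun _ => Finset.mem_univ _⟩, h3⟩, h4⟩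

lemma st_insert_mem {T : SimpleGraph Z} {rk : V → ℕ} {R : Z → Z → Prop} {P : Finset Z} {f σ : Z → V}
    {z : Z} (hz : z ∉ P) (hσ : σ ∈ st T H rk R P f) :
    σ ∈ st T H rk R (insert z P) (Function.update f z (σ z)) := by
  rw [mem_st] at hσ ⊢
  refine ⟨hσ.1, hσ.2.1, ?_⟩
  intro x hx
  rcases Finset.mem_insert.mp hx with rfl | hx
  · simp
  · have hxz : x ≠ z := fun h => hz (h ▸ hx)
    rw [Function.update_of_ne hxz]
    exact hσ.2.2 x hx

lemma card_compl_insert {P : Finset Z} {z : Z} {k : ℕ} (hz : z ∈ Pᶜ) (hk : Pᶜ.card = k + 1) :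
    (insert z P)ᶜ.card = k := by
  have h1 : (insert z P)ᶜ = Pᶜ.erase z := by
    ext x
    simp [Finset.mem_erase]
  rw [h1, Finset.card_erase_of_mem hz, hk]
  rfl

/-- The core count. -/
lemma core_count (hq : 0 < q) (hq1 : q ≤ 1) {δ d : ℕ} {M : ℝ} (hM0 : 0 < M) (hδM : (δ : ℝ) ≤ M)
    (hcn : ∀ B : Finset V, ((cn H B).card : ℝ) * q ^ (d - B.card) ≤ M)
    {rk : V → ℕ} (hrk : Function.Injective rk)
    (hout : ∀ u, (Finset.univ.filter (fun w => H.Adj u w ∧ rk u < rk w)).card ≤ δ)
    {T : SimpleGraph Z} (hmin : ∀ y, d ≤ (Finset.univ.filter (fun z => T.Adj y z)).card)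
    (R : Z → Z → Prop) :
    ∀ (k : ℕ) (P : Finset Z) (f : Z → V), Pᶜ.card = k →
      ((st T H rk R P f).card : ℝ) ≤ (M / q) ^ k * q ^ (pre T R P).card := by
  have hA : 0 < M / q := by positivity
  intro k
  induction k with
  | zero =>
    intro P f hk
    have hP : Pᶜ = ∅ := Finset.card_eq_zero.mp hk
    have hP' : ∀ x, x ∈ P := by
      intro x
      by_contra hx
      have : x ∈ Pᶜ := Finset.mem_compl.mpr hx
      rw [hP] at this
      simp at this
    have h1 : (st T H rk R P f).card ≤ 1 := by
      refine Finset.card_le_one.mpr ?_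
      intro a ha b hb
      rw [mem_st] at ha hb
      funext x
      rw [ha.2.2 x (hP' x), hb.2.2 x (hP' x)]
    have h2 : pre T R P = ∅ := by
      unfold pre
      rw [hP]
      simp
    rw [h2]
    simp only [pow_zero, Finset.card_empty, mul_one]
    exact_mod_cast h1
  | succ k ih =>
    intro P f hk
    by_cases hne : (st T H rk R P f).Nonempty
    swap
    · rw [Finset.not_nonempty_iff_eq_empty] at hne
      rw [hne]
      simp only [Finset.card_empty, Nat.cast_zero]
      positivity
    obtain ⟨σ₀, hσ₀⟩ := hne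
    have hσ₀' := mem_st.mp hσ₀
    by_cases hpre : (pre T R P).Nonempty
    · -- a vertex with a placed in-neighbour
      obtain ⟨z, hz⟩ := hpre
      have hz' := Finset.mem_filter.mp hz
      obtain ⟨hzc, w, hw, hwz, hR⟩ := hz'
      have hzP : z ∉ P := Finset.mem_compl.mp hzc
      set Out := Finset.univ.filter (fun u => H.Adj (f w) u ∧ rk (f w) < rk u) with hOut
      have hsub : st T H rk R P f ⊆
          Out.biUnion (fun u => st T H rk R (insert z P) (Function.update f z u)) := by
        intro σ hσ
        have hσ' := mem_st.mp hσ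
        refine Finset.mem_biUnion.mpr ⟨σ z, ?_, st_insert_mem hzP hσ⟩
        rw [hOut, Finset.mem_filter]
        refine ⟨Finset.mem_univ _, ?_, ?_⟩
        · rw [← hσ'.2.2 w hw]
          exact hσ'.1.2 _ _ hwz
        · rw [← hσ'.2.2 w hw]
          exact (hσ'.2.1 _ _ hwz).mp hR
      set pp := (pre T R (insert z P)).card with hpp
      have hih : ∀ u, ((st T H rk R (insert z P) (Function.update f z u)).card : ℝ) ≤
          (M / q) ^ k * q ^ pp := fun u => ih _ _ (card_compl_insert hzc hk)
      have hpcard : (pre T R P).card ≤ pp + 1 := by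
        have h1 : pre T R P ⊆ insert z (pre T R (insert z P)) := by
          intro x hx
          by_cases hxz : x = z
          · exact Finset.mem_insert.mpr (Or.inl hxz)
          · refine Finset.mem_insert.mpr (Or.inr ?_)
            have hx' := Finset.mem_filter.mp hx
            obtain ⟨h2, w', hw', h3, h4⟩ := hx'
            refine Finset.mem_filter.mpr ⟨?_, w', Finset.mem_insert_of_mem hw', h3, h4⟩
            rw [Finset.mem_compl, Finset.mem_insert, not_or]
            exact ⟨hxz, Finset.mem_compl.mp h2⟩
        exact (Finset.card_le_card h1).trans (Finset.card_insert_le _ _)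
      set p := (pre T R P).card with hp
      have hcard : ((st T H rk R P f).card : ℝ) ≤ (Out.card : ℝ) * ((M / q) ^ k * q ^ pp) := by
        have h1 : (st T H rk R P f).card ≤
            ∑ u ∈ Out, (st T H rk R (insert z P) (Function.update f z u)).card :=
          (Finset.card_le_card hsub).trans Finset.card_biUnion_le
        calc ((st T H rk R P f).card : ℝ)
            ≤ ∑ u ∈ Out, ((st T H rk R (insert z P) (Function.update f z u)).card : ℝ) := by
              exact_mod_cast h1
          _ ≤ ∑ _u ∈ Out, ((M / q) ^ k * q ^ pp) := Finset.sum_le_sum (fun u _ => hih u)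
          _ = _ := by rw [Finset.sum_const, nsmul_eq_mul]
      have hOutM : (Out.card : ℝ) ≤ M := by
        have h1 : (Out.card : ℝ) ≤ δ := by exact_mod_cast hout (f w)
        linarith
      have hp1 : 1 ≤ p := by
        rw [hp]
        exact Finset.card_pos.mpr ⟨z, hz⟩
      have hqp : q ^ pp ≤ q ^ (p - 1) := pow_le_pow_of_le_one hq.le hq1 (by omega)
      calc ((st T H rk R P f).card : ℝ) ≤ (Out.card : ℝ) * ((M / q) ^ k * q ^ pp) := hcard
        _ ≤ M * ((M / q) ^ k * q ^ (p - 1)) := by
            apply mul_le_mul hOutM _ (by positivity) hM0.le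
            exact mul_le_mul_of_nonneg_left hqp (by positivity)
        _ = (M / q) ^ (k + 1) * q ^ p := by
            have h1 : q ^ p = q * q ^ (p - 1) := by
              rw [← pow_succ']
              congr 1
              omega
            rw [h1, pow_succ]
            field_simp
    · -- a new source
      rw [Finset.not_nonempty_iff_eq_empty] at hpre
      rw [hpre, Finset.card_empty, pow_zero, mul_one]
      have hne : Pᶜ.Nonempty := by
        rw [← Finset.card_pos]
        omega
      obtain ⟨y, hyc, hymin⟩ := Finset.exists_min_image Pᶜ (fun y => rk (σ₀ y)) hne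
      have hyP : y ∉ P := Finset.mem_compl.mp hyc
      set Ny := P.filter (fun x => T.Adj y x) with hNy
      set B := Ny.image f with hB
      set U' := Pᶜ.filter (fun z => T.Adj y z) with hU'
      have hBc : B.card = Ny.card := by
        rw [hB]
        refine Finset.card_image_of_injOn ?_
        intro a ha b hb hab
        have ha' := (Finset.mem_filter.mp (Finset.mem_coe.mp ha)).1
        have hb' := (Finset.mem_filter.mp (Finset.mem_coe.mp hb)).1
        apply hσ₀'.1.1
        rw [hσ₀'.2.2 a ha', hσ₀'.2.2 b hb']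
        exact hab
      have hdeg : d ≤ Ny.card + U'.card := by
        refine (hmin y).trans ?_
        have h1 : Finset.univ.filter (fun z => T.Adj y z) ⊆ Ny ∪ U' := by
          intro z hz
          have hz' := (Finset.mem_filter.mp hz).2
          by_cases hzP : z ∈ P
          · exact Finset.mem_union_left _ (Finset.mem_filter.mpr ⟨hzP, hz'⟩)
          · exact Finset.mem_union_right _
              (Finset.mem_filter.mpr ⟨Finset.mem_compl.mpr hzP, hz'⟩)
        exact (Finset.card_le_card h1).trans (Finset.card_union_le _ _)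
      have hU'sub : U' ⊆ pre T R (insert y P) := by
        intro z hz
        obtain ⟨h1, h2⟩ := Finset.mem_filter.mp hz
        have hzy : z ≠ y := fun h => T.loopless.irrefl y (by rw [h] at h2; exact h2)
        refine Finset.mem_filter.mpr ⟨?_, y, Finset.mem_insert_self _ _, h2, ?_⟩
        · rw [Finset.mem_compl, Finset.mem_insert, not_or]
          exact ⟨hzy, Finset.mem_compl.mp h1⟩
        · refine (hσ₀'.2.1 _ _ h2).mpr ?_
          have h3 := hymin z h1
          have h4 : rk (σ₀ y) ≠ rk (σ₀ z) := fun h => hzy (hσ₀'.1.1 (hrk h)).symm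
          omega
      have hsub : st T H rk R P f ⊆
          (cn H B).biUnion (fun u => st T H rk R (insert y P) (Function.update f y u)) := by
        intro σ hσ
        have hσ' := mem_st.mp hσ
        refine Finset.mem_biUnion.mpr ⟨σ y, ?_, st_insert_mem hyP hσ⟩
        rw [mem_cn]
        intro b hb
        obtain ⟨x, hx, rfl⟩ := Finset.mem_image.mp hb
        obtain ⟨h1, h2⟩ := Finset.mem_filter.mp hx
        rw [← hσ'.2.2 x h1]
        exact hσ'.1.2 _ _ h2.symm
      set pp := (pre T R (insert y P)).card with hpp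
      have hih : ∀ u, ((st T H rk R (insert y P) (Function.update f y u)).card : ℝ) ≤
          (M / q) ^ k * q ^ pp := fun u => ih _ _ (card_compl_insert hyc hk)
      have hqp : q ^ pp ≤ q ^ (d - B.card) := by
        apply pow_le_pow_of_le_one hq.le hq1
        have := Finset.card_le_card hU'sub
        omega
      have hcard : ((st T H rk R P f).card : ℝ) ≤ ((cn H B).card : ℝ) * ((M / q) ^ k * q ^ pp) := by
        have h1 : (st T H rk R P f).card ≤
            ∑ u ∈ cn H B, (st T H rk R (insert y P) (Function.update f y u)).card :=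
          (Finset.card_le_card hsub).trans Finset.card_biUnion_le
        calc ((st T H rk R P f).card : ℝ)
            ≤ ∑ u ∈ cn H B, ((st T H rk R (insert y P) (Function.update f y u)).card : ℝ) := by
              exact_mod_cast h1
          _ ≤ ∑ _u ∈ cn H B, ((M / q) ^ k * q ^ pp) := Finset.sum_le_sum (fun u _ => hih u)
          _ = _ := by rw [Finset.sum_const, nsmul_eq_mul]
      have hMq : M ≤ M / q := by
        rw [le_div_iff₀ hq]
        nlinarith
      calc ((st T H rk R P f).card : ℝ) ≤ ((cn H B).card : ℝ) * ((M / q) ^ k * q ^ pp) := hcard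
        _ ≤ ((cn H B).card : ℝ) * ((M / q) ^ k * q ^ (d - B.card)) := by
            apply mul_le_mul_of_nonneg_left _ (by positivity)
            exact mul_le_mul_of_nonneg_left hqp (by positivity)
        _ = (((cn H B).card : ℝ) * q ^ (d - B.card)) * (M / q) ^ k := by ring
        _ ≤ M * (M / q) ^ k := mul_le_mul_of_nonneg_right (hcn B) (by positivity)
        _ ≤ (M / q) * (M / q) ^ k := mul_le_mul_of_nonneg_right hMq (by positivity)
        _ = (M / q) ^ (k + 1) := by rw [pow_succ']

/-- The number of edges as a cardinality. -/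
lemma numEdges_eq (T : SimpleGraph Z) : numEdges T = T.edgeFinset.card := by
  unfold numEdges
  rw [← coe_edgeFinset, Set.ncard_coe_finset]

/-- The bound for all embeddings of a graph of large minimum degree. -/
lemma emb_orient (hq : 0 < q) (hq1 : q ≤ 1) {δ d : ℕ} {M : ℝ} (hM0 : 0 < M) (hδM : (δ : ℝ) ≤ M)
    (hcn : ∀ B : Finset V, ((cn H B).card : ℝ) * q ^ (d - B.card) ≤ M)
    {rk : V → ℕ} (hrk : Function.Injective rk)
    (hout : ∀ u, (Finset.univ.filter (fun w => H.Adj u w ∧ rk u < rk w)).card ≤ δ)
    {T : SimpleGraph Z} (hmin : ∀ y, d ≤ (Finset.univ.filter (fun z => T.Adj y z)).card) :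
    ((Emb T H Finset.univ).card : ℝ) ≤ 2 ^ numEdges T * (M / q) ^ Fintype.card Z := by
  have hA : 0 < M / q := by positivity
  let code : (Z → V) → Finset (Sym2 Z) := fun σ =>
    T.edgeFinset.filter (fun e => rk (σ (Quot.out e).1) < rk (σ (Quot.out e).2))
  have hfib : ∀ S ∈ (Emb T H Finset.univ).image code,
      (((Emb T H Finset.univ).filter (fun σ => code σ = S)).card : ℝ) ≤
        (M / q) ^ Fintype.card Z := by
    intro S hS
    obtain ⟨σ₁, hσ₁, rfl⟩ := Finset.mem_image.mp hS
    have hσ₁' := mem_Emb.mp hσ₁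
    have hsub : (Emb T H Finset.univ).filter (fun σ => code σ = code σ₁) ⊆
        st T H rk (fun x y => rk (σ₁ x) < rk (σ₁ y)) ∅ σ₁ := by
      intro σ hσ
      obtain ⟨h1, h2⟩ := Finset.mem_filter.mp hσ
      have h1' := mem_Emb.mp h1
      rw [mem_st]
      refine ⟨⟨h1'.1, h1'.2.1⟩, ?_, by simp⟩
      intro x y hxy
      have hne : x ≠ y := hxy.ne
      have he : s(x, y) ∈ T.edgeFinset := by
        rw [mem_edgeFinset]
        exact hxy
      have hout' : s((Quot.out s(x, y)).1, (Quot.out s(x, y)).2) = s(x, y) :=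
        Quot.out_eq s(x, y)
      have hmem : ∀ τ : Z → V, (s(x, y) ∈ code τ ↔
          rk (τ (Quot.out s(x, y)).1) < rk (τ (Quot.out s(x, y)).2)) := by
        intro τ
        simp only [code, Finset.mem_filter, he, true_and]
      have hiff := (hmem σ).symm.trans ((Finset.ext_iff.mp h2 _).trans (hmem σ₁))
      rcases Sym2.eq_iff.mp hout' with ⟨h3, h4⟩ | ⟨h3, h4⟩
      · rw [h3, h4] at hiff
        exact hiff.symm
      · rw [h3, h4] at hiff
        have h5 : rk (σ x) ≠ rk (σ y) := fun h => hne (h1'.1 (hrk h))
        have h6 : rk (σ₁ x) ≠ rk (σ₁ y) := fun h => hne (hσ₁'.1 (hrk h))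
        constructor
        · intro h7
          by_contra h8
          have h9 : rk (σ y) < rk (σ x) := by omega
          have h10 := hiff.mp h9
          omega
        · intro h7
          by_contra h8
          have h9 : rk (σ₁ y) < rk (σ₁ x) := by omega
          have h10 := hiff.mpr h9
          omega
    have h1 := core_count hq hq1 hM0 hδM hcn hrk hout hmin
      (fun x y => rk (σ₁ x) < rk (σ₁ y)) (Fintype.card Z) ∅ σ₁ (by simp)
    have h2 : pre T (fun x y => rk (σ₁ x) < rk (σ₁ y)) ∅ = ∅ := by
      unfold pre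
      simp
    rw [h2, Finset.card_empty, pow_zero, mul_one] at h1
    calc _ ≤ ((st T H rk (fun x y => rk (σ₁ x) < rk (σ₁ y)) ∅ σ₁).card : ℝ) := by
          exact_mod_cast Finset.card_le_card hsub
      _ ≤ _ := h1
  have himg : (((Emb T H Finset.univ).image code).card : ℝ) ≤ 2 ^ numEdges T := by
    have h1 : (Emb T H Finset.univ).image code ⊆ T.edgeFinset.powerset := by
      intro S hS
      obtain ⟨σ, _, rfl⟩ := Finset.mem_image.mp hS
      exact Finset.mem_powerset.mpr (Finset.filter_subset _ _)
    have h2 := Finset.card_le_card h1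
    rw [Finset.card_powerset, ← numEdges_eq] at h2
    exact_mod_cast h2
  have hsum := Finset.card_eq_sum_card_image code (Emb T H Finset.univ)
  calc ((Emb T H Finset.univ).card : ℝ)
      = ∑ S ∈ (Emb T H Finset.univ).image code,
          (((Emb T H Finset.univ).filter (fun σ => code σ = S)).card : ℝ) := by
        exact_mod_cast hsum
    _ ≤ ∑ _S ∈ (Emb T H Finset.univ).image code, (M / q) ^ Fintype.card Z :=
        Finset.sum_le_sum hfib
    _ = (((Emb T H Finset.univ).image code).card : ℝ) * (M / q) ^ Fintype.card Z := by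
        rw [Finset.sum_const, nsmul_eq_mul]
    _ ≤ _ := mul_le_mul_of_nonneg_right himg (by positivity)

end Vale.Agent.Lib.P064d
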