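import Vale.Agent.Lib.P064d.Deg

/-!
The bound on embeddings when only the degrees inside a set containing the `k`-core matter.
-/

namespace Vale.Agent.Lib.P064d

open Finset SimpleGraph Vale.Agent.Lib.P064 Vale.Agent.Lib.P064k
open scoped Classical Nat

set_option linter.unusedSectionVars false
set_option linter.unusedVariables false

universe u v

variable {V : Type v} [Fintype V] {H : SimpleGraph V} {n : ℕ} {q : ℝ}
variable {Z : Type u} [Fintype Z]

/-- The subgraph of `H` on the set `S`. -/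
def onSet (H : SimpleGraph V) (S : Set V) : SimpleGraph V where
  Adj a b := H.Adj a b ∧ a ∈ S ∧ b ∈ S
  symm := ⟨fun a b h => ⟨h.1.symm, h.2.2, h.2.1⟩⟩
  loopless := ⟨fun a h => H.loopless.irrefl a h.1⟩

lemma onSet_deg {S : Set V} {D : ℕ} (hD : ∀ u ∈ S, (S ∩ H.neighborSet u).ncard ≤ D) (u : V) :
    (Finset.univ.filter (fun w => (onSet H S).Adj u w)).card ≤ D := by
  by_cases hu : u ∈ S
  · refine le_trans ?_ (hD u hu)
    rw [ncard_inter_nbr]
    refine Finset.card_le_card ?_
    intro w hw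
    have h := (Finset.mem_filter.mp hw).2
    exact Finset.mem_filter.mpr ⟨Finset.mem_filter.mpr ⟨Finset.mem_univ _, h.2.2⟩, h.1⟩
  · have : Finset.univ.filter (fun w => (onSet H S).Adj u w) = ∅ := by
      refine Finset.eq_empty_of_forall_notMem ?_
      intro w hw
      exact hu (Finset.mem_filter.mp hw).2.2.1
    rw [this]
    simp

/-- An embedding of a graph of large minimum degree lands in the core. -/
lemma emb_onSet {S : Set V} {d : ℕ}
    (hW : ∀ W : Set V, (∀ u ∈ W, d ≤ (W ∩ H.neighborSet u).ncard) → W ⊆ S)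
    {T : SimpleGraph Z} (hmin : ∀ y, d ≤ (Finset.univ.filter (fun z => T.Adj y z)).card)
    {σ : Z → V} (hσ : σ ∈ Emb T H Finset.univ) : σ ∈ Emb T (onSet H S) Finset.univ := by
  obtain ⟨h1, h2, _⟩ := mem_Emb.mp hσ
  have hsub : Set.range σ ⊆ S := by
    refine hW _ ?_
    rintro u ⟨z, rfl⟩
    refine (hmin z).trans ?_
    have h3 : ((Finset.univ.filter (fun w => T.Adj z w)).image σ : Set V) ⊆
        Set.range σ ∩ H.neighborSet (σ z) := by
      intro x hx
      obtain ⟨w, hw, rfl⟩ := Finset.mem_image.mp (Finset.mem_coe.mp hx)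
      exact ⟨⟨w, rfl⟩, h2 _ _ (Finset.mem_filter.mp hw).2⟩
    have h4 := Set.ncard_le_ncard h3 (Set.toFinite _)
    rw [Set.ncard_coe_finset, Finset.card_image_of_injective _ h1] at h4
    exact h4
  refine mem_Emb.mpr ⟨h1, ?_, fun _ => Finset.mem_univ _⟩
  intro a b hab
  exact ⟨h2 a b hab, hsub ⟨a, rfl⟩, hsub ⟨b, rfl⟩⟩

/-- All copies of a connected graph, from the disjoint copies, with the rooted count in `G`. -/
lemma emb_conn_deg2 (hq : 0 < q) (hq1 : q ≤ 1) (hn : 1 ≤ n)
    (hyp : ∀ F : H.Subgraph, 1 ≤ expCopies n q F.coe) {G : SimpleGraph V} {Δ : ℕ}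
    (hΔ : ∀ u, (Finset.univ.filter (fun w => G.Adj u w)).card ≤ Δ)
    {T : SimpleGraph Z} (hT : T.Connected) (hno : ∀ z, ∃ y, T.Adj z y) {m : ℕ}
    (hm : Fintype.card Z = m + 1) (hG : ∀ σ ∈ Emb T H Finset.univ, σ ∈ Emb T G Finset.univ) :
    ((Emb T H Finset.univ).card : ℝ) ≤
      (9 * ((n : ℝ) ^ Fintype.card Z * q ^ numEdges T)) * ((Fintype.card Z : ℝ) ^ 2 * (Δ : ℝ) ^ m) := by
  have hZ : Nonempty Z := hT.nonempty
  have hn0 : (0 : ℝ) < n := by
    have : 0 < n := by omega
    exact_mod_cast this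
  let good : Finset (Finset (Z → V)) := (Emb T H Finset.univ).powerset.filter PairDisj
  have hne : good.Nonempty :=
    ⟨∅, Finset.mem_filter.mpr ⟨Finset.empty_mem_powerset _, fun σ h => by simp at h⟩⟩
  obtain ⟨A, hAg, hAmax⟩ := Finset.exists_max_image good Finset.card hne
  obtain ⟨hA1, hd⟩ := Finset.mem_filter.mp hAg
  have hA : ∀ σ ∈ A, σ ∈ Emb T H Finset.univ := fun σ hσ => Finset.mem_powerset.mp hA1 hσ
  have hk := card_disj_le hq hq1 hn hyp hA hd hZ hno
  have hmeet : ∀ τ ∈ Emb T H Finset.univ, ∃ σ ∈ A, ∃ x y, τ x = σ y := by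
    intro τ hτ
    by_contra hcon
    push Not at hcon
    have hτA : τ ∉ A := by
      intro h
      obtain ⟨z⟩ := hZ
      exact hcon τ h z z rfl
    have hins : insert τ A ∈ good := by
      refine Finset.mem_filter.mpr ⟨Finset.mem_powerset.mpr ?_, ?_⟩
      · intro ρ hρ
        rcases Finset.mem_insert.mp hρ with rfl | hρ
        · exact hτ
        · exact hA ρ hρ
      · intro σ₁ h₁ σ₂ h₂ x y hxy
        rcases Finset.mem_insert.mp h₁ with e₁ | h₁
        · rcases Finset.mem_insert.mp h₂ with e₂ | h₂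
          · rw [e₁, e₂]
          · rw [e₁] at hxy
            exact absurd hxy (hcon _ h₂ x y)
        · rcases Finset.mem_insert.mp h₂ with e₂ | h₂
          · rw [e₂] at hxy
            exact absurd hxy.symm (hcon _ h₁ y x)
          · exact hd _ h₁ _ h₂ x y hxy
    have h1 := hAmax _ hins
    rw [Finset.card_insert_of_notMem hτA] at h1
    omega
  have hcover : Emb T H Finset.univ ⊆
      (A ×ˢ ((Finset.univ : Finset Z) ×ˢ (Finset.univ : Finset Z))).biUnion (fun r =>
        (Emb T G Finset.univ).filter (fun τ => ∀ x ∈ ({r.2.1} : Finset Z), τ x =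
          (fun _ => r.1 r.2.2) x)) := by
    intro τ hτ
    obtain ⟨σ, hσ, x, y, hxy⟩ := hmeet τ hτ
    refine Finset.mem_biUnion.mpr ⟨(σ, x, y), Finset.mem_product.mpr ⟨hσ,
      Finset.mem_product.mpr ⟨Finset.mem_univ _, Finset.mem_univ _⟩⟩,
      Finset.mem_filter.mpr ⟨hG τ hτ, ?_⟩⟩
    intro x' hx'
    rw [Finset.mem_singleton.mp hx']
    exact hxy
  have hcard : (Emb T H Finset.univ).card ≤ A.card * (Fintype.card Z * Fintype.card Z) * Δ ^ m := by
    have h1 := Finset.card_le_card hcover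
    refine h1.trans (Finset.card_biUnion_le.trans ?_)
    calc _ ≤ ∑ _r ∈ A ×ˢ ((Finset.univ : Finset Z) ×ˢ (Finset.univ : Finset Z)), Δ ^ m := by
          refine Finset.sum_le_sum (fun r _ => ?_)
          refine rooted_count hΔ hT m _ _ (Finset.singleton_nonempty _) ?_
          rw [Finset.card_compl, Finset.card_singleton, hm]
          rfl
      _ = _ := by
          rw [Finset.sum_const, smul_eq_mul, Finset.card_product, Finset.card_product,
            Finset.card_univ]
  have hkn : (0 : ℝ) ≤ (n : ℝ) ^ Fintype.card Z * q ^ numEdges T := by positivity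
  calc ((Emb T H Finset.univ).card : ℝ)
      ≤ (A.card : ℝ) * ((Fintype.card Z : ℝ) * (Fintype.card Z : ℝ)) * (Δ : ℝ) ^ m := by
        exact_mod_cast hcard
    _ ≤ (9 * ((n : ℝ) ^ Fintype.card Z * q ^ numEdges T)) *
          ((Fintype.card Z : ℝ) * (Fintype.card Z : ℝ)) * (Δ : ℝ) ^ m := by
        apply mul_le_mul_of_nonneg_right _ (by positivity)
        exact mul_le_mul_of_nonneg_right hk (by positivity)
    _ = _ := by ring

/-- The connected branch. -/
lemma conn_branch2 (hn : 1 ≤ n) (hq : 0 < q) (hq1 : q ≤ 1)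
    (hyp : ∀ F : H.Subgraph, 1 ≤ expCopies n q F.coe) {d Δ : ℕ} {L : ℝ} {G : SimpleGraph V}
    (hΔ : ∀ u, (Finset.univ.filter (fun w => G.Adj u w)).card ≤ Δ) (hΔ1 : 1 ≤ Δ) (hd1 : 1 ≤ d)
    (hL1 : 1 ≤ L) (hLd : (Δ : ℝ) ^ 2 ≤ L ^ d) {T : SimpleGraph Z} (hT : T.Connected)
    (hmin : ∀ y, d ≤ (Finset.univ.filter (fun z => T.Adj y z)).card)
    (hG : ∀ σ ∈ Emb T H Finset.univ, σ ∈ Emb T G Finset.univ) :
    ((Emb T H Finset.univ).card : ℝ) ≤ (9 * (n : ℝ)) ^ Fintype.card Z * (L * q) ^ numEdges T := by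
  have hn0 : (0 : ℝ) < n := by exact_mod_cast hn
  have hL0 : 0 < L := by linarith
  have hno : ∀ z, ∃ y, T.Adj z y := by
    intro z
    have h1 := hmin z
    have h2 : (Finset.univ.filter (fun w => T.Adj z w)).Nonempty := by
      rw [← Finset.card_pos]
      omega
    obtain ⟨y, hy⟩ := h2
    exact ⟨y, (Finset.mem_filter.mp hy).2⟩
  have hZ : Nonempty Z := hT.nonempty
  obtain ⟨m, hm⟩ : ∃ m, Fintype.card Z = m + 1 := by
    have : 0 < Fintype.card Z := Fintype.card_pos
    exact ⟨Fintype.card Z - 1, by omega⟩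
  have h1 := emb_conn_deg2 hq hq1 hn hyp hΔ hT hno hm hG
  set v := Fintype.card Z with hv
  set e := numEdges T with he
  have hdv : d * v ≤ 2 * e := by
    have hsum := T.sum_degrees_eq_twice_card_edges
    rw [← numEdges_eq] at hsum
    rw [← hsum]
    have hdeg : ∀ z : Z, d ≤ T.degree z := by
      intro z
      refine (hmin z).trans ?_
      rw [← card_neighborFinset_eq_degree]
      refine Finset.card_le_card ?_
      intro w hw
      rw [mem_neighborFinset]
      exact (Finset.mem_filter.mp hw).2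
    calc d * v = ∑ _z : Z, d := by
          rw [Finset.sum_const, Finset.card_univ, smul_eq_mul, mul_comm]
      _ ≤ _ := Finset.sum_le_sum (fun z _ => hdeg z)
  have hΔ1' : (1 : ℝ) ≤ Δ := by exact_mod_cast hΔ1
  have hΔv : (Δ : ℝ) ^ m ≤ L ^ e := by
    have h2 : ((Δ : ℝ) ^ v) ^ 2 ≤ (L ^ e) ^ 2 := by
      calc ((Δ : ℝ) ^ v) ^ 2 = ((Δ : ℝ) ^ 2) ^ v := by rw [← pow_mul, ← pow_mul, mul_comm]
        _ ≤ (L ^ d) ^ v := pow_le_pow_left₀ (by positivity) hLd v
        _ = L ^ (d * v) := by rw [← pow_mul]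
        _ ≤ L ^ (2 * e) := pow_le_pow_right₀ hL1 hdv
        _ = (L ^ e) ^ 2 := by rw [← pow_mul, mul_comm]
    have h3 : (Δ : ℝ) ^ v ≤ L ^ e :=
      (pow_le_pow_iff_left₀ (by positivity) (by positivity) (by norm_num)).mp h2
    exact (pow_le_pow_right₀ hΔ1' (by omega)).trans h3
  have hv9 : (9 : ℝ) * (v : ℝ) ^ 2 ≤ 9 ^ v := by
    have h2 : m < 3 ^ m := Nat.lt_pow_self (by norm_num)
    have h3 : v ≤ 3 ^ m := by omega
    have h4 : (v : ℝ) ≤ 3 ^ m := by exact_mod_cast h3
    have h5 : (v : ℝ) ^ 2 ≤ (3 ^ m) ^ 2 := pow_le_pow_left₀ (by positivity) h4 2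
    have h6 : ((3 : ℝ) ^ m) ^ 2 = 9 ^ m := by
      rw [← pow_mul, mul_comm, pow_mul]
      norm_num
    rw [h6] at h5
    have h9 : (9 : ℝ) ^ v = 9 ^ m * 9 := by rw [hm, pow_succ]
    rw [h9]
    linarith
  have hx : 0 ≤ (n : ℝ) ^ v * q ^ e := by positivity
  have hLe : 0 ≤ L ^ e := by positivity
  calc ((Emb T H Finset.univ).card : ℝ) ≤ (9 * ((n : ℝ) ^ v * q ^ e)) * ((v : ℝ) ^ 2 * (Δ : ℝ) ^ m) := h1
    _ = (9 * (v : ℝ) ^ 2) * (Δ : ℝ) ^ m * ((n : ℝ) ^ v * q ^ e) := by ring
    _ ≤ (9 ^ v) * L ^ e * ((n : ℝ) ^ v * q ^ e) := by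
        apply mul_le_mul_of_nonneg_right _ hx
        exact mul_le_mul hv9 hΔv (by positivity) (by positivity)
    _ = _ := by
        rw [mul_pow, mul_pow]
        ring

/-- The bound on embeddings of all graphs when the degrees inside the core are bounded. -/
theorem emb_deg2 (hn : 1 ≤ n) (hq : 0 < q) (hq1 : q ≤ 1) (hV : Fintype.card V ≤ n)
    (hyp : ∀ F : H.Subgraph, 1 ≤ expCopies n q F.coe) {d Δ : ℕ} {M L : ℝ} (hP : Param n q d M)
    {S : Set V} (hW : ∀ W : Set V, (∀ u ∈ W, d ≤ (W ∩ H.neighborSet u).ncard) → W ⊆ S)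
    (hΔ : ∀ u ∈ S, (S ∩ H.neighborSet u).ncard ≤ Δ) (hΔ1 : 1 ≤ Δ)
    (hL1 : 1 ≤ L) (hLd : (Δ : ℝ) ^ 2 ≤ L ^ d) :
    ∀ (k : ℕ) (Z : Type u) [Fintype Z] (T : SimpleGraph Z), Fintype.card Z = k →
      ((Emb T H Finset.univ).card : ℝ) ≤ (9 * (n : ℝ)) ^ k * (L * q) ^ numEdges T := by
  have hn0 : (0 : ℝ) < n := by exact_mod_cast hn
  have hL0 : 0 < L := by linarith
  have hd1 : 1 ≤ d := hP.hd1
  intro k
  induction k using Nat.strong_induction_on with
  | _ k ih =>
    intro Z _ T hZ
    by_cases hZne : Nonempty Z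
    swap
    · have hE : IsEmpty Z := not_nonempty_iff.mp hZne
      have h0 : k = 0 := by
        rw [← hZ]
        exact Fintype.card_eq_zero
      have h1 : (Emb T H Finset.univ).card ≤ 1 := by
        refine Finset.card_le_one.mpr ?_
        intro a _ b _
        funext x
        exact hE.elim x
      have h2 : numEdges T = 0 := by
        rw [numEdges_eq]
        refine Finset.card_eq_zero.mpr (Finset.eq_empty_of_forall_notMem ?_)
        intro e
        induction e using Sym2.ind with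
        | _ a b => exact hE.elim a
      rw [h0, h2, pow_zero, pow_zero, mul_one]
      exact_mod_cast h1
    by_cases hlow : ∃ y, (Finset.univ.filter (fun z => T.Adj y z)).card < d
    · obtain ⟨y, hy⟩ := hlow
      set Z' := {z : Z // z ≠ y} with hZ'
      set T' : SimpleGraph Z' := T.comap Subtype.val with hT'
      obtain ⟨k', hk'⟩ : ∃ k', k = k' + 1 := by
        have : 0 < Fintype.card Z := Fintype.card_pos
        exact ⟨k - 1, by omega⟩
      have hZ'card : Fintype.card Z' = k' := by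
        have h1 : Fintype.card {z : Z // z ≠ y} = Fintype.card Z - 1 := by
          have h2 : Fintype.card {z : Z // z ≠ y} = (Finset.univ.erase y).card := by
            rw [Fintype.card_subtype]
            congr 1
            ext z
            simp
          rw [h2, Finset.card_erase_of_mem (Finset.mem_univ _), Finset.card_univ]
        rw [hZ, hk', Nat.add_sub_cancel] at h1
        convert h1 using 1
      set D := (Finset.univ.filter (fun z => T.Adj y z)).card with hD
      have hih := ih k' (by omega) Z' T' hZ'card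
      have hedges : numEdges T = numEdges T' + D := numEdges_peel T y
      have hc : ∀ g ∈ Emb T' H Finset.univ,
          ((cn H (((Finset.univ : Finset {z : Z // z ≠ y}).filter
            (fun z' => T.Adj y z'.1)).image g)).card : ℝ) ≤ 9 * n * q ^ D := by
        intro g hg
        have hg' := (mem_Emb.mp hg).1
        have h1 : (((Finset.univ : Finset {z : Z // z ≠ y}).filter
            (fun z' => T.Adj y z'.1)).image g).card = D := by
          rw [Finset.card_image_of_injective _ hg', card_nbrs_peel]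
        have h2 := cn_low hq hn hV hyp hP (B := ((Finset.univ : Finset {z : Z // z ≠ y}).filter
            (fun z' => T.Adj y z'.1)).image g) (by rw [h1]; exact hy)
        rwa [h1] at h2
      have h3 := emb_peel T y hc
      have hqL : q ≤ L * q := by nlinarith
      have hqD : q ^ D ≤ (L * q) ^ D := pow_le_pow_left₀ hq.le hqL D
      calc ((Emb T H Finset.univ).card : ℝ) ≤ ((Emb T' H Finset.univ).card : ℝ) * (9 * n * q ^ D) := h3
        _ ≤ ((9 * (n : ℝ)) ^ k' * (L * q) ^ numEdges T') * (9 * n * q ^ D) :=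
            mul_le_mul_of_nonneg_right hih (by positivity)
        _ ≤ ((9 * (n : ℝ)) ^ k' * (L * q) ^ numEdges T') * (9 * n * (L * q) ^ D) := by
            apply mul_le_mul_of_nonneg_left _ (by positivity)
            exact mul_le_mul_of_nonneg_left hqD (by positivity)
        _ = _ := by
            rw [hedges, pow_add, hk', pow_succ]
            ring
    · push Not at hlow
      by_cases hT : T.Connected
      · have := conn_branch2 hn hq hq1 hyp (onSet_deg hΔ) hΔ1 hd1 hL1 hLd hT hlow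
          (fun σ hσ => emb_onSet hW hlow hσ)
        rwa [hZ] at this
      · have hnp : ¬ T.Preconnected := fun h => hT ⟨h⟩
        unfold SimpleGraph.Preconnected at hnp
        push Not at hnp
        obtain ⟨a, b, hab⟩ := hnp
        have hclosed : ∀ x y, T.Adj x y → (T.Reachable a x ↔ T.Reachable a y) := by
          intro x y hxy
          exact ⟨fun h => h.trans hxy.reachable, fun h => h.trans hxy.reachable.symm⟩
        have h := split_step (H := H) (A := 9 * (n : ℝ)) (B := L * q) (by positivity)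
          (by positivity) T (fun z => T.Reachable a z) hclosed ⟨a, SimpleGraph.Reachable.refl a⟩
          ⟨b, hab⟩ (by rw [hZ]; exact ih)
        rwa [hZ] at h

/-- The bound in the form needed for the spread lemma. -/
theorem emb_deg_bound2 (hn : 1 ≤ n) (hq : 0 < q) (hq1 : q ≤ 1) (hV : Fintype.card V ≤ n)
    (hyp : ∀ F : H.Subgraph, 1 ≤ expCopies n q F.coe) {d Δ : ℕ} {M L : ℝ} (hP : Param n q d M)
    {S : Set V} (hW : ∀ W : Set V, (∀ u ∈ W, d ≤ (W ∩ H.neighborSet u).ncard) → W ⊆ S)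
    (hΔ : ∀ u ∈ S, (S ∩ H.neighborSet u).ncard ≤ Δ) (hΔ1 : 1 ≤ Δ)
    (hL1 : 1 ≤ L) (hLd : (Δ : ℝ) ^ 2 ≤ L ^ d) (F : SimpleGraph Z) :
    ((Emb F H Finset.univ).card : ℝ) ≤ (n.descFactorial (Fintype.card Z) : ℝ) *
      (729 * (L * q)) ^ numEdges F := by
  have hL0 : 0 < L := by linarith
  refine emb_strip (by positivity) hV (fun Z _ F hno => ?_) (Fintype.card Z) Z F rfl
  have h1 := emb_deg2 hn hq hq1 hV hyp hP hW hΔ hΔ1 hL1 hLd (Fintype.card Z) Z F rfl
  set e := numEdges F with he
  set v := Fintype.card Z with hv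
  have hve : v ≤ 2 * e := card_le_two_edges F hno
  by_cases hvn : v ≤ n
  swap
  · have h0 : Emb F H Finset.univ = ∅ := by
      refine Finset.eq_empty_of_forall_notMem fun f hf => ?_
      rcases mem_Emb.mp hf with ⟨h2, _, _⟩
      have := Fintype.card_le_of_injective f h2
      omega
    rw [h0]
    simp only [Finset.card_empty, Nat.cast_zero]
    positivity
  have h2 := pow_le_three_desc hvn
  have hdn : (0 : ℝ) ≤ (n.descFactorial v : ℝ) := by positivity
  have h27 : (27 : ℝ) ^ v ≤ 729 ^ e := by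
    have : (729 : ℝ) ^ e = 27 ^ (2 * e) := by
      rw [pow_mul]; norm_num
    rw [this]
    exact pow_le_pow_right₀ (by norm_num) hve
  have h3 : (9 * (n : ℝ)) ^ v ≤ 729 ^ e * (n.descFactorial v : ℝ) := by
    calc (9 * (n : ℝ)) ^ v = 9 ^ v * (n : ℝ) ^ v := mul_pow _ _ _
      _ ≤ 9 ^ v * (3 ^ v * (n.descFactorial v : ℝ)) := mul_le_mul_of_nonneg_left h2 (by positivity)
      _ = 27 ^ v * (n.descFactorial v : ℝ) := by rw [← mul_assoc, ← mul_pow]; norm_num
      _ ≤ _ := mul_le_mul_of_nonneg_right h27 hdn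
  calc ((Emb F H Finset.univ).card : ℝ) ≤ (9 * (n : ℝ)) ^ v * (L * q) ^ e := h1
    _ ≤ (729 ^ e * (n.descFactorial v : ℝ)) * (L * q) ^ e :=
        mul_le_mul_of_nonneg_right h3 (by positivity)
    _ = _ := by rw [mul_pow 729 (L * q) e]; ring

/-- The bound for `p_c` when the degrees inside a set containing the `k`-core are bounded. -/
theorem pCrit_kcore (hn : 2 ≤ n) (hV : Fintype.card V ≤ n) (hE : 1 ≤ numEdges H) {q : ℝ}
    (hqE : pExp n H ≤ q) (hq1 : q ≤ 1) {k Δ : ℕ} (hk : 1 ≤ k)
    (hkq : ((k : ℝ) - 1) * (2 * (-Real.log q)) < Real.log n) {S : Set V}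
    (hW : ∀ W : Set V, (∀ u ∈ W, k ≤ (W ∩ H.neighborSet u).ncard) → W ⊆ S)
    (hΔ : ∀ u ∈ S, (S ∩ H.neighborSet u).ncard ≤ Δ) (hΔ1 : 1 ≤ Δ) :
    pCrit n H ≤ 419904 * q * Real.log n *
      Real.exp (4 * Real.log Δ * (-Real.log q) / Real.log n) := by
  have hn0 : (0 : ℝ) < n := by
    have : 0 < n := by omega
    exact_mod_cast this
  have hN2 : Real.log 2 ≤ Real.log n :=
    Real.log_le_log (by norm_num) (by exact_mod_cast hn)
  have hl2 := Real.log_two_gt_d9
  set N := Real.log n with hN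
  have hN0 : 0 < N := by linarith
  have hNlow : (0.69 : ℝ) < N := by linarith
  obtain ⟨hp0, _, hp⟩ := pExp_mem (H := H) hV
  obtain ⟨hppos, hyp2⟩ := hyp_double hV hE hp0 hp
  have hq0 : 0 < q := lt_of_lt_of_le hppos hqE
  have hΔ1' : (1 : ℝ) ≤ Δ := by exact_mod_cast hΔ1
  have hlogΔ : 0 ≤ Real.log Δ := Real.log_nonneg hΔ1'
  have hlq0 : Real.log q ≤ 0 := Real.log_nonpos hq0.le hq1
  set q₁ := 3 * q with hq₁
  have hq₁0 : 0 < q₁ := by positivity
  have hyp1 : ∀ F : H.Subgraph, 1 ≤ expCopies n q₁ F.coe := fun F =>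
    (hyp2 F).trans (expCopies_mono (by positivity) (by rw [hq₁]; linarith) _)
  have hexp2 : 1 ≤ Real.exp (4 * Real.log Δ * (-Real.log q) / N) := by
    apply Real.one_le_exp
    apply div_nonneg _ hN0.le
    have : 0 ≤ -Real.log q := by linarith
    positivity
  by_cases hsmall : q₁ ≤ Real.exp (-1)
  · have hq₁1 : q₁ ≤ 1 := hsmall.trans (Real.exp_le_one_iff.mpr (by norm_num))
    set l := -Real.log q₁ with hl
    have hl1 : 1 ≤ l := by
      have h1 := Real.log_le_log hq₁0 hsmall
      rw [Real.log_exp] at h1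
      rw [hl]
      linarith
    have hqexp : q₁ = Real.exp (-l) := by
      rw [hl, neg_neg, Real.exp_log hq₁0]
    have hnexp : (n : ℝ) = Real.exp N := by
      rw [hN, Real.exp_log hn0]
    obtain ⟨d, hd1, hdmin, hd2, hdN, hlow⟩ := aux_depth hl1 hNlow hnexp hqexp
    have hP : Param n q₁ d ((N + 4) ^ 2) := by
      refine ⟨hd1, hdmin, hd2, ?_⟩
      calc (d : ℝ) * N ≤ (N + 4) * N := mul_le_mul_of_nonneg_right hdN hN0.le
        _ ≤ _ := by nlinarith
    have hlqq : Real.log q ≤ Real.log q₁ := Real.log_le_log hq0 (by rw [hq₁]; linarith)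
    have hll : l ≤ -Real.log q := by
      rw [hl]
      linarith
    -- the depth is at least `k`
    have hkd : k ≤ d := by
      by_contra hcon
      push Not at hcon
      have h1 : (d : ℝ) ≤ (k : ℝ) - 1 := by
        have : d + 1 ≤ k := hcon
        have h2 : ((d + 1 : ℕ) : ℝ) ≤ (k : ℝ) := by exact_mod_cast this
        push_cast at h2
        linarith
      have hl0 : 0 < l := by linarith
      have h3 : 2 * (d : ℝ) * l ≤ ((k : ℝ) - 1) * (2 * (-Real.log q)) := by
        have hd0 : (0 : ℝ) ≤ d := by positivity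
        nlinarith
      linarith
    have hW' : ∀ W : Set V, (∀ u ∈ W, d ≤ (W ∩ H.neighborSet u).ncard) → W ⊆ S :=
      fun W hw => hW W (fun u hu => hkd.trans (hw u hu))
    set L := Real.exp (4 * Real.log Δ * l / N) with hL
    have hl0 : 0 < l := by linarith
    have hL1 : 1 ≤ L := by
      apply Real.one_le_exp
      positivity
    have hL0 : 0 < L := by linarith
    have hLd : (Δ : ℝ) ^ 2 ≤ L ^ d := by
      have hΔ0 : (0 : ℝ) < Δ := by linarith
      have h1 : (Δ : ℝ) ^ 2 = Real.exp (2 * Real.log Δ) := by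
        rw [← Real.exp_log hΔ0, ← Real.exp_nat_mul, Real.log_exp]
        norm_num
      rw [h1, hL, ← Real.exp_nat_mul]
      apply Real.exp_le_exp.mpr
      have h2 : (d : ℝ) * (4 * Real.log Δ * l / N) = (2 * Real.log Δ) * (2 * d * l / N) := by
        ring
      rw [h2]
      have h3 : 1 ≤ 2 * (d : ℝ) * l / N := by
        rw [one_le_div hN0]
        exact hlow
      nlinarith
    have hbd : EmbBound H n (729 * (L * q₁)) := by
      intro Z _ F
      exact emb_deg_bound2 (by omega) hq₁0 hq₁1 hV hyp1 hP hW' hΔ hΔ1 hL1 hLd F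
    have h1 := pCrit_le_of_bound (by positivity) hV hbd
    have hlr := log_edges_le hn hV hE
    have hlr0 : (0 : ℝ) ≤ (Nat.log 2 (numEdges H) : ℝ) + 1 := by positivity
    have hLle : L ≤ Real.exp (4 * Real.log Δ * (-Real.log q) / N) := by
      apply Real.exp_le_exp.mpr
      apply div_le_div_of_nonneg_right _ hN0.le
      exact mul_le_mul_of_nonneg_left hll (by positivity)
    calc pCrit n H ≤ 729 * (L * q₁) * (32 * ((Nat.log 2 (numEdges H) : ℝ) + 1)) := h1
      _ ≤ 729 * (L * q₁) * (32 * (6 * N)) := by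
          apply mul_le_mul_of_nonneg_left _ (by positivity)
          linarith
      _ = 419904 * q * N * L := by
          rw [hq₁]
          ring
      _ ≤ _ := mul_le_mul_of_nonneg_left hLle (by positivity)
  · push Not at hsmall
    have hPbd : BddBelow {p : ℝ | 0 ≤ p ∧ p ≤ 1 ∧
        1 / 2 ≤ gnpProb n p (fun G => 0 < G.copyCount H)} := ⟨0, fun p hp => hp.1⟩
    have h1 : pCrit n H ≤ 1 := csInf_le hPbd ⟨zero_le_one, le_rfl, gnp_one hV⟩
    have hexpm : (1 : ℝ) / 3 ≤ Real.exp (-1) := by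
      rw [Real.exp_neg, inv_eq_one_div]
      exact one_div_le_one_div_of_le (Real.exp_pos 1) (by
        have := Real.exp_one_lt_d9
        linarith)
    have hq9 : (1 : ℝ) / 9 ≤ q := by
      rw [hq₁] at hsmall
      linarith
    have h2 : 1 ≤ 419904 * q * N := by
      have h4 : (1 / 9 : ℝ) * (0.69 : ℝ) ≤ q * N := by
        apply mul_le_mul hq9 (by linarith) (by norm_num) hq0.le
      nlinarith
    have h3 : 419904 * q * N * 1 ≤ 419904 * q * N * Real.exp (4 * Real.log Δ * (-Real.log q) / N) :=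
      mul_le_mul_of_nonneg_left hexp2 (by positivity)
    linarith

end Vale.Agent.Lib.P064d
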