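import Vale.Agent.Lib.P064d.CoreDeg

/-!
The bound on embeddings when vertices of degree at most `κ` are peeled, where `n q^κ ≥ 1`, and the
degrees matter only inside a set containing the `(κ+1)`-core.
-/

namespace Vale.Agent.Lib.P064d

open Finset SimpleGraph Vale.Agent.Lib.P064 Vale.Agent.Lib.P064k
open scoped Classical Nat

set_option linter.unusedSectionVars false
set_option linter.unusedVariables false

universe u v

variable {V : Type v} [Fintype V] {H : SimpleGraph V} {n : ℕ} {q : ℝ}
variable {Z : Type u} [Fintype Z]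

/-- The bound on embeddings of all graphs. -/
theorem emb_deg3 (hn : 1 ≤ n) (hq : 0 < q) (hq1 : q ≤ 1) (hV : Fintype.card V ≤ n)
    (hyp : ∀ F : H.Subgraph, 1 ≤ expCopies n q F.coe) {d κ Δ : ℕ} {M L : ℝ} (hP : Param n q d M)
    (hκ : 1 ≤ (n : ℝ) * q ^ κ)
    {S : Set V} (hW : ∀ W : Set V, (∀ u ∈ W, κ + 1 ≤ (W ∩ H.neighborSet u).ncard) → W ⊆ S)
    (hΔ : ∀ u ∈ S, (S ∩ H.neighborSet u).ncard ≤ Δ) (hΔ1 : 1 ≤ Δ)
    (hL1 : 1 ≤ L) (hLd : (Δ : ℝ) ^ 2 ≤ L ^ d) (hLM : M ≤ L ^ d) :
    ∀ (k : ℕ) (Z : Type u) [Fintype Z] (T : SimpleGraph Z), Fintype.card Z = k →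
      ((Emb T H Finset.univ).card : ℝ) ≤ (9 * (n : ℝ)) ^ k * (L * q) ^ numEdges T := by
  have hn0 : (0 : ℝ) < n := by exact_mod_cast hn
  have hL0 : 0 < L := by linarith
  have hd1 : 1 ≤ d := hP.hd1
  have hcn := cn_unif hq hq1 hn hV hyp hP
  intro k
  induction k using Nat.strong_induction_on with
  | _ k ih =>
    intro Z _ T hZ
    by_cases hZne : Nonempty Z
    swap
    · have hE : IsEmpty Z := not_nonempty_iff.mp hZne
      have h0 : k = 0 := by
        rw [← hZ]
        exact Fintype.card_eq_zero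
      have h1 : (Emb T H Finset.univ).card ≤ 1 := by
        refine Finset.card_le_one.mpr ?_
        intro a _ b _
        funext x
        exact hE.elim x
      have h2 : numEdges T = 0 := by
        rw [numEdges_eq]
        refine Finset.card_eq_zero.mpr (Finset.eq_empty_of_forall_notMem ?_)
        intro e
        induction e using Sym2.ind with
        | _ a b => exact hE.elim a
      rw [h0, h2, pow_zero, pow_zero, mul_one]
      exact_mod_cast h1
    by_cases hlow : ∃ y, (Finset.univ.filter (fun z => T.Adj y z)).card < max d (κ + 1)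
    · obtain ⟨y, hy⟩ := hlow
      set Z' := {z : Z // z ≠ y} with hZ'
      set T' : SimpleGraph Z' := T.comap Subtype.val with hT'
      obtain ⟨k', hk'⟩ : ∃ k', k = k' + 1 := by
        have : 0 < Fintype.card Z := Fintype.card_pos
        exact ⟨k - 1, by omega⟩
      have hZ'card : Fintype.card Z' = k' := by
        have h1 : Fintype.card {z : Z // z ≠ y} = Fintype.card Z - 1 := by
          have h2 : Fintype.card {z : Z // z ≠ y} = (Finset.univ.erase y).card := by
            rw [Fintype.card_subtype]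
            congr 1
            ext z
            simp
          rw [h2, Finset.card_erase_of_mem (Finset.mem_univ _), Finset.card_univ]
        rw [hZ, hk', Nat.add_sub_cancel] at h1
        convert h1 using 1
      set D := (Finset.univ.filter (fun z => T.Adj y z)).card with hD
      have hih := ih k' (by omega) Z' T' hZ'card
      have hedges : numEdges T = numEdges T' + D := numEdges_peel T y
      have hqL : q ≤ L * q := by nlinarith
      have hqD : q ^ D ≤ (L * q) ^ D := pow_le_pow_left₀ hq.le hqL D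
      have hc : ∀ g ∈ Emb T' H Finset.univ,
          ((cn H (((Finset.univ : Finset {z : Z // z ≠ y}).filter
            (fun z' => T.Adj y z'.1)).image g)).card : ℝ) ≤ 9 * n * (L * q) ^ D := by
        intro g hg
        have hg' := (mem_Emb.mp hg).1
        have h1 : (((Finset.univ : Finset {z : Z // z ≠ y}).filter
            (fun z' => T.Adj y z'.1)).image g).card = D := by
          rw [Finset.card_image_of_injective _ hg', card_nbrs_peel]
        by_cases hDd : D < d
        · have h2 := cn_low hq hn hV hyp hP (B := ((Finset.univ : Finset {z : Z // z ≠ y}).filter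
              (fun z' => T.Adj y z'.1)).image g) (by rw [h1]; exact hDd)
          rw [h1] at h2
          exact h2.trans (mul_le_mul_of_nonneg_left hqD (by positivity))
        · push Not at hDd
          have hDκ : D ≤ κ := by
            have := lt_max_iff.mp hy
            omega
          have h2 := hcn (((Finset.univ : Finset {z : Z // z ≠ y}).filter
            (fun z' => T.Adj y z'.1)).image g)
          rw [h1, Nat.sub_eq_zero_of_le hDd, pow_zero, mul_one] at h2
          have h3 : L ^ d ≤ L ^ D := pow_le_pow_right₀ hL1 hDd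
          have h4 : q ^ κ ≤ q ^ D := pow_le_pow_of_le_one hq.le hq1 hDκ
          have h5 : 1 ≤ (n : ℝ) * q ^ D := hκ.trans (mul_le_mul_of_nonneg_left h4 hn0.le)
          have h6 : 0 ≤ L ^ D := by positivity
          calc _ ≤ M := h2
            _ ≤ L ^ d := hLM
            _ ≤ L ^ D := h3
            _ ≤ L ^ D * ((n : ℝ) * q ^ D) := le_mul_of_one_le_right h6 h5
            _ = (n : ℝ) * (L * q) ^ D := by rw [mul_pow]; ring
            _ ≤ 9 * (n : ℝ) * (L * q) ^ D := by
                have : 0 ≤ (n : ℝ) * (L * q) ^ D := by positivity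
                linarith
      have h3 := emb_peel T y hc
      calc ((Emb T H Finset.univ).card : ℝ) ≤ ((Emb T' H Finset.univ).card : ℝ) * (9 * n * (L * q) ^ D) := h3
        _ ≤ ((9 * (n : ℝ)) ^ k' * (L * q) ^ numEdges T') * (9 * n * (L * q) ^ D) :=
            mul_le_mul_of_nonneg_right hih (by positivity)
        _ = _ := by
            rw [hedges, pow_add, hk', pow_succ]
            ring
    · push Not at hlow
      by_cases hT : T.Connected
      · have hW' : ∀ W : Set V, (∀ u ∈ W, max d (κ + 1) ≤ (W ∩ H.neighborSet u).ncard) → W ⊆ S :=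
          fun W hw => hW W (fun u hu => (le_max_right _ _).trans (hw u hu))
        have hLt : (Δ : ℝ) ^ 2 ≤ L ^ (max d (κ + 1)) :=
          hLd.trans (pow_le_pow_right₀ hL1 (le_max_left _ _))
        have := conn_branch2 hn hq hq1 hyp (onSet_deg hΔ) hΔ1 (hd1.trans (le_max_left _ _)) hL1 hLt
          hT hlow (fun σ hσ => emb_onSet hW' hlow hσ)
        rwa [hZ] at this
      · have hnp : ¬ T.Preconnected := fun h => hT ⟨h⟩
        unfold SimpleGraph.Preconnected at hnp
        push Not at hnp
        obtain ⟨a, b, hab⟩ := hnp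
        have hclosed : ∀ x y, T.Adj x y → (T.Reachable a x ↔ T.Reachable a y) := by
          intro x y hxy
          exact ⟨fun h => h.trans hxy.reachable, fun h => h.trans hxy.reachable.symm⟩
        have h := split_step (H := H) (A := 9 * (n : ℝ)) (B := L * q) (by positivity)
          (by positivity) T (fun z => T.Reachable a z) hclosed ⟨a, SimpleGraph.Reachable.refl a⟩
          ⟨b, hab⟩ (by rw [hZ]; exact ih)
        rwa [hZ] at h

/-- The bound in the form needed for the spread lemma. -/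
theorem emb_deg_bound3 (hn : 1 ≤ n) (hq : 0 < q) (hq1 : q ≤ 1) (hV : Fintype.card V ≤ n)
    (hyp : ∀ F : H.Subgraph, 1 ≤ expCopies n q F.coe) {d κ Δ : ℕ} {M L : ℝ} (hP : Param n q d M)
    (hκ : 1 ≤ (n : ℝ) * q ^ κ)
    {S : Set V} (hW : ∀ W : Set V, (∀ u ∈ W, κ + 1 ≤ (W ∩ H.neighborSet u).ncard) → W ⊆ S)
    (hΔ : ∀ u ∈ S, (S ∩ H.neighborSet u).ncard ≤ Δ) (hΔ1 : 1 ≤ Δ)
    (hL1 : 1 ≤ L) (hLd : (Δ : ℝ) ^ 2 ≤ L ^ d) (hLM : M ≤ L ^ d) (F : SimpleGraph Z) :
    ((Emb F H Finset.univ).card : ℝ) ≤ (n.descFactorial (Fintype.card Z) : ℝ) *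
      (729 * (L * q)) ^ numEdges F := by
  have hL0 : 0 < L := by linarith
  refine emb_strip (by positivity) hV (fun Z _ F hno => ?_) (Fintype.card Z) Z F rfl
  have h1 := emb_deg3 hn hq hq1 hV hyp hP hκ hW hΔ hΔ1 hL1 hLd hLM (Fintype.card Z) Z F rfl
  set e := numEdges F with he
  set v := Fintype.card Z with hv
  have hve : v ≤ 2 * e := card_le_two_edges F hno
  by_cases hvn : v ≤ n
  swap
  · have h0 : Emb F H Finset.univ = ∅ := by
      refine Finset.eq_empty_of_forall_notMem fun f hf => ?_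
      rcases mem_Emb.mp hf with ⟨h2, _, _⟩
      have := Fintype.card_le_of_injective f h2
      omega
    rw [h0]
    simp only [Finset.card_empty, Nat.cast_zero]
    positivity
  have h2 := pow_le_three_desc hvn
  have hdn : (0 : ℝ) ≤ (n.descFactorial v : ℝ) := by positivity
  have h27 : (27 : ℝ) ^ v ≤ 729 ^ e := by
    have : (729 : ℝ) ^ e = 27 ^ (2 * e) := by
      rw [pow_mul]; norm_num
    rw [this]
    exact pow_le_pow_right₀ (by norm_num) hve
  have h3 : (9 * (n : ℝ)) ^ v ≤ 729 ^ e * (n.descFactorial v : ℝ) := by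
    calc (9 * (n : ℝ)) ^ v = 9 ^ v * (n : ℝ) ^ v := mul_pow _ _ _
      _ ≤ 9 ^ v * (3 ^ v * (n.descFactorial v : ℝ)) := mul_le_mul_of_nonneg_left h2 (by positivity)
      _ = 27 ^ v * (n.descFactorial v : ℝ) := by rw [← mul_assoc, ← mul_pow]; norm_num
      _ ≤ _ := mul_le_mul_of_nonneg_right h27 hdn
  calc ((Emb F H Finset.univ).card : ℝ) ≤ (9 * (n : ℝ)) ^ v * (L * q) ^ e := h1
    _ ≤ (729 ^ e * (n.descFactorial v : ℝ)) * (L * q) ^ e :=
        mul_le_mul_of_nonneg_right h3 (by positivity)
    _ = _ := by rw [mul_pow 729 (L * q) e]; ring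

/-- The bound for `p_c`. -/
theorem pCrit_kcore3 (hn : 2 ≤ n) (hV : Fintype.card V ≤ n) (hE : 1 ≤ numEdges H) {q : ℝ}
    (hqE : pExp n H ≤ q) (hq1 : q ≤ 1) {κ Δ : ℕ} (hκ : 1 ≤ (n : ℝ) * q ^ κ) {S : Set V}
    (hW : ∀ W : Set V, (∀ u ∈ W, κ + 1 ≤ (W ∩ H.neighborSet u).ncard) → W ⊆ S)
    (hΔ : ∀ u ∈ S, (S ∩ H.neighborSet u).ncard ≤ Δ) (hΔ1 : 1 ≤ Δ) :
    pCrit n H ≤ 419904 * q * Real.log n *
      Real.exp ((4 * Real.log Δ + 4 * Real.log (Real.log n + 4)) * (-Real.log q) / Real.log n) := by
  have hn0 : (0 : ℝ) < n := by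
    have : 0 < n := by omega
    exact_mod_cast this
  have hN2 : Real.log 2 ≤ Real.log n :=
    Real.log_le_log (by norm_num) (by exact_mod_cast hn)
  have hl2 := Real.log_two_gt_d9
  set N := Real.log n with hN
  have hN0 : 0 < N := by linarith
  have hNlow : (0.69 : ℝ) < N := by linarith
  obtain ⟨hp0, _, hp⟩ := pExp_mem (H := H) hV
  obtain ⟨hppos, hyp2⟩ := hyp_double hV hE hp0 hp
  have hq0 : 0 < q := lt_of_lt_of_le hppos hqE
  have hΔ1' : (1 : ℝ) ≤ Δ := by exact_mod_cast hΔ1
  have hlogΔ : 0 ≤ Real.log Δ := Real.log_nonneg hΔ1'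
  have hlogN : 0 ≤ Real.log (N + 4) := Real.log_nonneg (by linarith)
  have hlq0 : Real.log q ≤ 0 := Real.log_nonpos hq0.le hq1
  set q₁ := 3 * q with hq₁
  have hq₁0 : 0 < q₁ := by positivity
  have hyp1 : ∀ F : H.Subgraph, 1 ≤ expCopies n q₁ F.coe := fun F =>
    (hyp2 F).trans (expCopies_mono (by positivity) (by rw [hq₁]; linarith) _)
  have hexp2 : 1 ≤ Real.exp ((4 * Real.log Δ + 4 * Real.log (N + 4)) * (-Real.log q) / N) := by
    apply Real.one_le_exp
    apply div_nonneg _ hN0.le
    have : 0 ≤ -Real.log q := by linarith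
    positivity
  by_cases hsmall : q₁ ≤ Real.exp (-1)
  · have hq₁1 : q₁ ≤ 1 := hsmall.trans (Real.exp_le_one_iff.mpr (by norm_num))
    set l := -Real.log q₁ with hl
    have hl1 : 1 ≤ l := by
      have h1 := Real.log_le_log hq₁0 hsmall
      rw [Real.log_exp] at h1
      rw [hl]
      linarith
    have hqexp : q₁ = Real.exp (-l) := by
      rw [hl, neg_neg, Real.exp_log hq₁0]
    have hnexp : (n : ℝ) = Real.exp N := by
      rw [hN, Real.exp_log hn0]
    obtain ⟨d, hd1, hdmin, hd2, hdN, hlow⟩ := aux_depth hl1 hNlow hnexp hqexp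
    have hP : Param n q₁ d ((N + 4) ^ 2) := by
      refine ⟨hd1, hdmin, hd2, ?_⟩
      calc (d : ℝ) * N ≤ (N + 4) * N := mul_le_mul_of_nonneg_right hdN hN0.le
        _ ≤ _ := by nlinarith
    have hlqq : Real.log q ≤ Real.log q₁ := Real.log_le_log hq0 (by rw [hq₁]; linarith)
    have hll : l ≤ -Real.log q := by
      rw [hl]
      linarith
    have hκ₁ : 1 ≤ (n : ℝ) * q₁ ^ κ := by
      refine hκ.trans (mul_le_mul_of_nonneg_left ?_ hn0.le)
      exact pow_le_pow_left₀ hq0.le (by rw [hq₁]; linarith) κ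
    set β := 4 * Real.log Δ + 4 * Real.log (N + 4) with hβ
    have hβ0 : 0 ≤ β := by positivity
    set L := Real.exp (β * l / N) with hL
    have hl0 : 0 < l := by linarith
    have hL1 : 1 ≤ L := by
      apply Real.one_le_exp
      positivity
    have hL0 : 0 < L := by linarith
    have hLdexp : L ^ d = Real.exp ((β / 2) * (2 * d * l / N)) := by
      rw [hL, ← Real.exp_nat_mul]
      congr 1
      ring
    have h3 : 1 ≤ 2 * (d : ℝ) * l / N := by
      rw [one_le_div hN0]
      exact hlow
    have hLβ : Real.exp (β / 2) ≤ L ^ d := by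
      rw [hLdexp]
      apply Real.exp_le_exp.mpr
      have : 0 ≤ β / 2 := by positivity
      nlinarith
    have hLd : (Δ : ℝ) ^ 2 ≤ L ^ d := by
      have hΔ0 : (0 : ℝ) < Δ := by linarith
      have h1 : (Δ : ℝ) ^ 2 = Real.exp (2 * Real.log Δ) := by
        rw [← Real.exp_log hΔ0, ← Real.exp_nat_mul, Real.log_exp]
        norm_num
      rw [h1]
      refine le_trans (Real.exp_le_exp.mpr ?_) hLβ
      rw [hβ]
      linarith
    have hLM : (N + 4) ^ 2 ≤ L ^ d := by
      have hN4 : (0 : ℝ) < N + 4 := by linarith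
      have h1 : (N + 4) ^ 2 = Real.exp (2 * Real.log (N + 4)) := by
        have h2 : Real.exp (((2 : ℕ) : ℝ) * Real.log (N + 4)) = (Real.exp (Real.log (N + 4))) ^ 2 :=
          Real.exp_nat_mul _ _
        rw [Real.exp_log hN4] at h2
        rw [← h2]
        norm_num
      rw [h1]
      refine le_trans (Real.exp_le_exp.mpr ?_) hLβ
      rw [hβ]
      linarith
    have hbd : EmbBound H n (729 * (L * q₁)) := by
      intro Z _ F
      exact emb_deg_bound3 (by omega) hq₁0 hq₁1 hV hyp1 hP hκ₁ hW hΔ hΔ1 hL1 hLd hLM F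
    have h1 := pCrit_le_of_bound (by positivity) hV hbd
    have hlr := log_edges_le hn hV hE
    have hlr0 : (0 : ℝ) ≤ (Nat.log 2 (numEdges H) : ℝ) + 1 := by positivity
    have hLle : L ≤ Real.exp (β * (-Real.log q) / N) := by
      apply Real.exp_le_exp.mpr
      apply div_le_div_of_nonneg_right _ hN0.le
      exact mul_le_mul_of_nonneg_left hll hβ0
    calc pCrit n H ≤ 729 * (L * q₁) * (32 * ((Nat.log 2 (numEdges H) : ℝ) + 1)) := h1
      _ ≤ 729 * (L * q₁) * (32 * (6 * N)) := by
          apply mul_le_mul_of_nonneg_left _ (by positivity)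
          linarith
      _ = 419904 * q * N * L := by
          rw [hq₁]
          ring
      _ ≤ _ := mul_le_mul_of_nonneg_left hLle (by positivity)
  · push Not at hsmall
    have hPbd : BddBelow {p : ℝ | 0 ≤ p ∧ p ≤ 1 ∧
        1 / 2 ≤ gnpProb n p (fun G => 0 < G.copyCount H)} := ⟨0, fun p hp => hp.1⟩
    have h1 : pCrit n H ≤ 1 := csInf_le hPbd ⟨zero_le_one, le_rfl, gnp_one hV⟩
    have hexpm : (1 : ℝ) / 3 ≤ Real.exp (-1) := by
      rw [Real.exp_neg, inv_eq_one_div]
      exact one_div_le_one_div_of_le (Real.exp_pos 1) (by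
        have := Real.exp_one_lt_d9
        linarith)
    have hq9 : (1 : ℝ) / 9 ≤ q := by
      rw [hq₁] at hsmall
      linarith
    have h2 : 1 ≤ 419904 * q * N := by
      have h4 : (1 / 9 : ℝ) * (0.69 : ℝ) ≤ q * N := by
        apply mul_le_mul hq9 (by linarith) (by norm_num) hq0.le
      nlinarith
    have h3 : 419904 * q * N * 1 ≤ 419904 * q * N *
        Real.exp ((4 * Real.log Δ + 4 * Real.log (N + 4)) * (-Real.log q) / N) :=
      mul_le_mul_of_nonneg_left hexp2 (by positivity)
    linarith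

end Vale.Agent.Lib.P064d
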