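import Vale.Agent.Lib.P064d.Core

/-!
Vertex disjoint copies of a graph in the host: their number is bounded by the expected count, and
they control the number of all copies when the host has bounded degree.
-/

namespace Vale.Agent.Lib.P064d

open Finset SimpleGraph Vale.Agent.Lib.P064 Vale.Agent.Lib.P064k
open scoped Classical Nat

set_option linter.unusedSectionVars false
set_option linter.unusedVariables false

universe u v

variable {V : Type v} [Fintype V] {H : SimpleGraph V} {n : ℕ} {q : ℝ}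
variable {Z : Type u} [Fintype Z]

/-- The edges of the copies in a family of embeddings. -/
noncomputable def fEdges (T : SimpleGraph Z) (A : Finset (Z → V)) : Finset (Sym2 V) :=
  A.biUnion (fun σ => T.edgeFinset.image (Sym2.map σ))

lemma fEdges_sub {T : SimpleGraph Z} {A : Finset (Z → V)}
    (hA : ∀ σ ∈ A, σ ∈ Emb T H Finset.univ) : ∀ e ∈ fEdges T A, e ∈ H.edgeSet := by
  intro e he
  obtain ⟨σ, hσ, he'⟩ := Finset.mem_biUnion.mp he
  obtain ⟨f, hf, rfl⟩ := Finset.mem_image.mp he'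
  rw [mem_edgeFinset] at hf
  induction f using Sym2.ind with
  | _ a b => exact (mem_Emb.mp (hA σ hσ)).2.1 a b hf

/-- Pairwise disjoint images. -/
def PairDisj (A : Finset (Z → V)) : Prop :=
  ∀ σ ∈ A, ∀ τ ∈ A, ∀ x y, σ x = τ y → σ = τ

lemma adj_fEdges {T : SimpleGraph Z} {A : Finset (Z → V)}
    (hA : ∀ σ ∈ A, σ ∈ Emb T H Finset.univ) (hd : PairDisj A) {σ τ : Z → V} (hσ : σ ∈ A)
    (hτ : τ ∈ A) {x y : Z} :
    s(σ x, τ y) ∈ fEdges T A ↔ σ = τ ∧ T.Adj x y := by
  constructor
  · intro h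
    obtain ⟨ρ, hρ, h1⟩ := Finset.mem_biUnion.mp h
    obtain ⟨f, hf, h2⟩ := Finset.mem_image.mp h1
    rw [mem_edgeFinset] at hf
    induction f using Sym2.ind with
    | _ a b =>
      have hab : T.Adj a b := hf
      have h3 : s(ρ a, ρ b) = s(σ x, τ y) := h2
      have hρi := (mem_Emb.mp (hA ρ hρ)).1
      rcases Sym2.eq_iff.mp h3 with ⟨h4, h5⟩ | ⟨h4, h5⟩
      · have e1 := hd ρ hρ σ hσ a x h4
        have e2 := hd ρ hρ τ hτ b y h5
        subst e1
        subst e2
        have e3 := hρi h4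
        have e4 := hρi h5
        subst e3
        subst e4
        exact ⟨rfl, hab⟩
      · have e1 := hd ρ hρ τ hτ a y h4
        have e2 := hd ρ hρ σ hσ b x h5
        subst e1
        subst e2
        have e3 := hρi h4
        have e4 := hρi h5
        subst e3
        subst e4
        exact ⟨rfl, hab.symm⟩
  · rintro ⟨rfl, h⟩
    refine Finset.mem_biUnion.mpr ⟨σ, hσ, Finset.mem_image.mpr ⟨s(x, y), ?_, rfl⟩⟩
    rw [mem_edgeFinset]
    exact h

lemma fEdges_card {T : SimpleGraph Z} {A : Finset (Z → V)}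
    (hA : ∀ σ ∈ A, σ ∈ Emb T H Finset.univ) (hd : PairDisj A) :
    (fEdges T A).card = A.card * numEdges T := by
  unfold fEdges
  rw [Finset.card_biUnion]
  · rw [Finset.sum_congr rfl (g := fun _ => numEdges T), Finset.sum_const, smul_eq_mul]
    intro σ hσ
    rw [Finset.card_image_of_injective _ (Sym2.map.injective (mem_Emb.mp (hA σ hσ)).1),
      numEdges_eq]
  · intro σ hσ τ hτ hne
    show Disjoint _ _
    rw [Finset.disjoint_left]
    intro e h1 h2
    obtain ⟨f, _, rfl⟩ := Finset.mem_image.mp h1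
    obtain ⟨f', _, h3⟩ := Finset.mem_image.mp h2
    induction f using Sym2.ind with
    | _ a b =>
      have hm : σ a ∈ Sym2.map τ f' := by
        rw [h3]
        exact Sym2.mem_map.mpr ⟨a, Sym2.mem_mk_left _ _, rfl⟩
      obtain ⟨y, _, hy⟩ := Sym2.mem_map.mp hm
      exact hne (hd σ hσ τ hτ a y hy.symm)

/-- The number of automorphisms of a union of disjoint copies is at least the factorial of the
number of copies. -/
lemma fact_le_aut_disj {T : SimpleGraph Z} {A : Finset (Z → V)}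
    (hA : ∀ σ ∈ A, σ ∈ Emb T H Finset.univ) (hd : PairDisj A) (hZ : Nonempty Z)
    (hno : ∀ z, ∃ y, T.Adj z y) :
    A.card ! ≤ Nat.card ((subOfEdges H (fEdges T A) (fEdges_sub hA)).coe ≃g
      (subOfEdges H (fEdges T A) (fEdges_sub hA)).coe) := by
  set J := subOfEdges H (fEdges T A) (fEdges_sub hA) with hJ
  have hmemJ : ∀ (σ : Z → V), σ ∈ A → ∀ z, σ z ∈ J.verts := by
    intro σ hσ z
    obtain ⟨y, hy⟩ := hno z
    refine Finset.mem_coe.mpr (mem_vertsOf.mpr ⟨s(σ z, σ y), ?_, Sym2.mem_mk_left _ _⟩)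
    exact (adj_fEdges hA hd hσ hσ).mpr ⟨rfl, hy⟩
  let e0 : {σ // σ ∈ A} × Z → J.verts := fun p => ⟨p.1.1 p.2, hmemJ p.1.1 p.1.2 p.2⟩
  have he0inj : Function.Injective e0 := by
    rintro ⟨⟨σ, hσ⟩, x⟩ ⟨⟨τ, hτ⟩, y⟩ h
    have h1 : σ x = τ y := congrArg Subtype.val h
    have h2 := hd σ hσ τ hτ x y h1
    subst h2
    have h3 := (mem_Emb.mp (hA σ hσ)).1 h1
    subst h3
    rfl
  have he0surj : Function.Surjective e0 := by
    rintro ⟨x, hx⟩
    obtain ⟨e, he, hxe⟩ := mem_vertsOf.mp (Finset.mem_coe.mp hx)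
    obtain ⟨σ, hσ, he'⟩ := Finset.mem_biUnion.mp he
    obtain ⟨f, _, rfl⟩ := Finset.mem_image.mp he'
    obtain ⟨z, _, hz⟩ := Sym2.mem_map.mp hxe
    exact ⟨(⟨σ, hσ⟩, z), Subtype.ext hz⟩
  let eJ : {σ // σ ∈ A} × Z ≃ J.verts := Equiv.ofBijective e0 ⟨he0inj, he0surj⟩
  have hadj : ∀ (p r : {σ // σ ∈ A} × Z),
      J.coe.Adj (eJ p) (eJ r) ↔ p.1 = r.1 ∧ T.Adj p.2 r.2 := by
    rintro ⟨⟨σ, hσ⟩, x⟩ ⟨⟨τ, hτ⟩, y⟩
    have h1 : J.coe.Adj (eJ (⟨σ, hσ⟩, x)) (eJ (⟨τ, hτ⟩, y)) ↔ s(σ x, τ y) ∈ fEdges T A := Iff.rfl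
    rw [h1, adj_fEdges hA hd hσ hτ]
    simp [Subtype.ext_iff]
  let Φ : Equiv.Perm {σ // σ ∈ A} → (J.coe ≃g J.coe) := fun π =>
    { toEquiv := eJ.symm.trans ((Equiv.prodCongr π (Equiv.refl Z)).trans eJ)
      map_rel_iff' := by
        intro a b
        obtain ⟨p, rfl⟩ := eJ.surjective a
        obtain ⟨r, rfl⟩ := eJ.surjective b
        simp only [Equiv.trans_apply, Equiv.symm_apply_apply]
        rw [hadj, hadj]
        simp [π.injective.eq_iff] }
  have hinj : Function.Injective Φ := by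
    intro π₁ π₂ h
    ext σ
    obtain ⟨z₀⟩ := hZ
    have h1 := congrArg (fun g : J.coe ≃g J.coe => g (eJ (σ, z₀))) h
    simp only [Φ] at h1
    have h2 : eJ (π₁ σ, z₀) = eJ (π₂ σ, z₀) := by
      simpa using h1
    have h3 := eJ.injective h2
    have h4 : π₁ σ = π₂ σ := congrArg Prod.fst h3
    rw [h4]
  have hfin : Finite (J.coe ≃g J.coe) := by
    refine Finite.of_injective (fun e => (e.toEquiv : J.verts ≃ J.verts)) ?_
    intro e₁ e₂ h
    ext x
    exact congrArg (fun g : J.verts ≃ J.verts => (g x).1) h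
  have h1 := Nat.card_le_card_of_injective Φ hinj
  have h2 : Nat.card (Equiv.Perm {σ // σ ∈ A}) = A.card ! := by
    rw [Nat.card_eq_fintype_card, Fintype.card_perm, Fintype.card_coe]
  rwa [h2] at h1

/-- The number of disjoint copies is bounded by the expected count. -/
lemma card_disj_le (hq : 0 < q) (hq1 : q ≤ 1) (hn : 1 ≤ n)
    (hyp : ∀ F : H.Subgraph, 1 ≤ expCopies n q F.coe) {T : SimpleGraph Z} {A : Finset (Z → V)}
    (hA : ∀ σ ∈ A, σ ∈ Emb T H Finset.univ) (hd : PairDisj A) (hZ : Nonempty Z)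
    (hno : ∀ z, ∃ y, T.Adj z y) :
    (A.card : ℝ) ≤ 9 * ((n : ℝ) ^ Fintype.card Z * q ^ numEdges T) := by
  set J := subOfEdges H (fEdges T A) (fEdges_sub hA) with hJ
  have h1 := aut_le_desc hq J (hyp J)
  have h2 : ((A.card ! : ℕ) : ℝ) ≤ (Nat.card (J.coe ≃g J.coe) : ℝ) := by
    exact_mod_cast fact_le_aut_disj hA hd hZ hno
  have hn1 : (1 : ℝ) ≤ n := by exact_mod_cast hn
  have he : numEdges J.coe = A.card * numEdges T := by
    rw [numEdges_coe, hJ, subOfEdges_edgeSet, Set.ncard_coe_finset, fEdges_card hA hd]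
  have hv : Fintype.card J.verts ≤ A.card * Fintype.card Z := by
    have hZ' : Fintype.card J.verts = (vertsOf (fEdges T A)).card :=
      Fintype.card_of_subtype (p := fun x => x ∈ J.verts) (vertsOf (fEdges T A)) (fun x => Iff.rfl)
    rw [hZ']
    have hsub : vertsOf (fEdges T A) ⊆ (A ×ˢ (Finset.univ : Finset Z)).image (fun p => p.1 p.2) := by
      intro x hx
      obtain ⟨e, he, hxe⟩ := mem_vertsOf.mp hx
      obtain ⟨σ, hσ, he'⟩ := Finset.mem_biUnion.mp he
      obtain ⟨f, _, rfl⟩ := Finset.mem_image.mp he'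
      obtain ⟨z, _, hz⟩ := Sym2.mem_map.mp hxe
      exact Finset.mem_image.mpr ⟨(σ, z), Finset.mem_product.mpr ⟨hσ, Finset.mem_univ _⟩, hz⟩
    refine (Finset.card_le_card hsub).trans (Finset.card_image_le.trans ?_)
    rw [Finset.card_product, Finset.card_univ]
  have h3 : ((n.descFactorial (Fintype.card J.verts) : ℕ) : ℝ) ≤
      (n : ℝ) ^ (A.card * Fintype.card Z) := by
    have h4 : n.descFactorial (Fintype.card J.verts) ≤ n ^ (Fintype.card J.verts) :=
      Nat.descFactorial_le_pow _ _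
    calc ((n.descFactorial (Fintype.card J.verts) : ℕ) : ℝ) ≤ (n : ℝ) ^ (Fintype.card J.verts) := by
          exact_mod_cast h4
      _ ≤ _ := pow_le_pow_right₀ hn1 hv
  have h5 : ((A.card ! : ℕ) : ℝ) ≤ (n : ℝ) ^ 0 * ((n : ℝ) ^ Fintype.card Z * q ^ numEdges T) ^ A.card := by
    calc ((A.card ! : ℕ) : ℝ) ≤ _ := h2
      _ ≤ _ := h1
      _ ≤ (n : ℝ) ^ (A.card * Fintype.card Z) * q ^ numEdges J.coe :=
          mul_le_mul_of_nonneg_right h3 (by positivity)
      _ = _ := by
          rw [he, pow_zero, one_mul, mul_pow, ← pow_mul, ← pow_mul, mul_comm (Fintype.card Z),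
            mul_comm (numEdges T)]
  have hn0 : (0 : ℝ) < n := by linarith
  have ha : 0 < (n : ℝ) ^ Fintype.card Z * q ^ numEdges T := by positivity
  rcases dichotomy hn ha h5 with h6 | h6
  · exact h6
  · have h7 : (A.card : ℝ) ≤ 0 := by simpa using h6
    have : 0 ≤ 9 * ((n : ℝ) ^ Fintype.card Z * q ^ numEdges T) := by positivity
    linarith

/-- Rooted count of copies in a host of bounded degree. -/
lemma rooted_count {Δ : ℕ} (hΔ : ∀ u, (Finset.univ.filter (fun w => H.Adj u w)).card ≤ Δ)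
    {T : SimpleGraph Z} (hT : T.Connected) :
    ∀ (k : ℕ) (P : Finset Z) (f : Z → V), P.Nonempty → Pᶜ.card = k →
      ((Emb T H Finset.univ).filter (fun σ => ∀ x ∈ P, σ x = f x)).card ≤ Δ ^ k := by
  intro k
  induction k with
  | zero =>
    intro P f _ hk
    have hP : Pᶜ = ∅ := Finset.card_eq_zero.mp hk
    have hP' : ∀ x, x ∈ P := by
      intro x
      by_contra hx
      have : x ∈ Pᶜ := Finset.mem_compl.mpr hx
      rw [hP] at this
      simp at this
    rw [pow_zero]
    refine Finset.card_le_one.mpr ?_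
    intro a ha b hb
    have ha' := (Finset.mem_filter.mp ha).2
    have hb' := (Finset.mem_filter.mp hb).2
    funext x
    rw [ha' x (hP' x), hb' x (hP' x)]
  | succ k ih =>
    intro P f hP hk
    have hne : Pᶜ.Nonempty := by
      rw [← Finset.card_pos]
      omega
    obtain ⟨w₀, hw₀⟩ := hP
    obtain ⟨z₀, hz₀⟩ := hne
    obtain ⟨p⟩ := hT.preconnected w₀ z₀
    obtain ⟨d, _, hd1, hd2⟩ := p.exists_boundary_dart (P : Set Z) (Finset.mem_coe.mpr hw₀)
      (fun h => (Finset.mem_compl.mp hz₀) (Finset.mem_coe.mp h))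
    set w := d.fst with hwdef
    set z := d.snd with hzdef
    have hwP : w ∈ P := Finset.mem_coe.mp hd1
    have hzP : z ∉ P := fun h => hd2 (Finset.mem_coe.mpr h)
    have hwz : T.Adj w z := d.adj
    have hsub : (Emb T H Finset.univ).filter (fun σ => ∀ x ∈ P, σ x = f x) ⊆
        (Finset.univ.filter (fun u => H.Adj (f w) u)).biUnion (fun u =>
          (Emb T H Finset.univ).filter
            (fun σ => ∀ x ∈ insert z P, σ x = Function.update f z u x)) := by
      intro σ hσ
      obtain ⟨h1, h2⟩ := Finset.mem_filter.mp hσ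
      refine Finset.mem_biUnion.mpr ⟨σ z, Finset.mem_filter.mpr ⟨Finset.mem_univ _, ?_⟩,
        Finset.mem_filter.mpr ⟨h1, ?_⟩⟩
      · rw [← h2 w hwP]
        exact (mem_Emb.mp h1).2.1 _ _ hwz
      · intro x hx
        rcases Finset.mem_insert.mp hx with rfl | hx
        · simp
        · have hxz : x ≠ z := fun h => hzP (h ▸ hx)
          rw [Function.update_of_ne hxz]
          exact h2 x hx
    have hcomp : (insert z P)ᶜ.card = k := card_compl_insert (Finset.mem_compl.mpr hzP) hk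
    calc _ ≤ _ := Finset.card_le_card hsub
      _ ≤ ∑ u ∈ Finset.univ.filter (fun u => H.Adj (f w) u), ((Emb T H Finset.univ).filter
            (fun σ => ∀ x ∈ insert z P, σ x = Function.update f z u x)).card :=
          Finset.card_biUnion_le
      _ ≤ ∑ _u ∈ Finset.univ.filter (fun u => H.Adj (f w) u), Δ ^ k :=
          Finset.sum_le_sum (fun u _ => ih _ _ (Finset.insert_nonempty _ _) hcomp)
      _ = (Finset.univ.filter (fun u => H.Adj (f w) u)).card * Δ ^ k := by
          rw [Finset.sum_const, smul_eq_mul]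
      _ ≤ Δ * Δ ^ k := Nat.mul_le_mul_right _ (hΔ _)
      _ = Δ ^ (k + 1) := (pow_succ' _ _).symm

/-- All copies of a connected graph in a host of bounded degree, from the disjoint copies. -/
lemma emb_conn_deg (hq : 0 < q) (hq1 : q ≤ 1) (hn : 1 ≤ n)
    (hyp : ∀ F : H.Subgraph, 1 ≤ expCopies n q F.coe) {Δ : ℕ}
    (hΔ : ∀ u, (Finset.univ.filter (fun w => H.Adj u w)).card ≤ Δ)
    {T : SimpleGraph Z} (hT : T.Connected) (hno : ∀ z, ∃ y, T.Adj z y) {m : ℕ}
    (hm : Fintype.card Z = m + 1) :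
    ((Emb T H Finset.univ).card : ℝ) ≤
      (9 * ((n : ℝ) ^ Fintype.card Z * q ^ numEdges T)) * ((Fintype.card Z : ℝ) ^ 2 * (Δ : ℝ) ^ m) := by
  have hZ : Nonempty Z := hT.nonempty
  have hn0 : (0 : ℝ) < n := by
    have : 0 < n := by omega
    exact_mod_cast this
  -- a maximal disjoint family
  let good : Finset (Finset (Z → V)) := (Emb T H Finset.univ).powerset.filter PairDisj
  have hne : good.Nonempty :=
    ⟨∅, Finset.mem_filter.mpr ⟨Finset.empty_mem_powerset _, fun σ h => by simp at h⟩⟩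
  obtain ⟨A, hAg, hAmax⟩ := Finset.exists_max_image good Finset.card hne
  obtain ⟨hA1, hd⟩ := Finset.mem_filter.mp hAg
  have hA : ∀ σ ∈ A, σ ∈ Emb T H Finset.univ := fun σ hσ => Finset.mem_powerset.mp hA1 hσ
  have hk := card_disj_le hq hq1 hn hyp hA hd hZ hno
  -- every copy meets the family
  have hmeet : ∀ τ ∈ Emb T H Finset.univ, ∃ σ ∈ A, ∃ x y, τ x = σ y := by
    intro τ hτ
    by_contra hcon
    push Not at hcon
    have hτA : τ ∉ A := by
      intro h
      obtain ⟨z⟩ := hZ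
      exact hcon τ h z z rfl
    have hins : insert τ A ∈ good := by
      refine Finset.mem_filter.mpr ⟨Finset.mem_powerset.mpr ?_, ?_⟩
      · intro ρ hρ
        rcases Finset.mem_insert.mp hρ with rfl | hρ
        · exact hτ
        · exact hA ρ hρ
      · intro σ₁ h₁ σ₂ h₂ x y hxy
        rcases Finset.mem_insert.mp h₁ with e₁ | h₁
        · rcases Finset.mem_insert.mp h₂ with e₂ | h₂
          · rw [e₁, e₂]
          · rw [e₁] at hxy
            exact absurd hxy (hcon _ h₂ x y)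
        · rcases Finset.mem_insert.mp h₂ with e₂ | h₂
          · rw [e₂] at hxy
            exact absurd hxy.symm (hcon _ h₁ y x)
          · exact hd _ h₁ _ h₂ x y hxy
    have h1 := hAmax _ hins
    rw [Finset.card_insert_of_notMem hτA] at h1
    omega
  -- the cover
  have hcover : Emb T H Finset.univ ⊆
      (A ×ˢ ((Finset.univ : Finset Z) ×ˢ (Finset.univ : Finset Z))).biUnion (fun r =>
        (Emb T H Finset.univ).filter (fun τ => ∀ x ∈ ({r.2.1} : Finset Z), τ x =
          (fun _ => r.1 r.2.2) x)) := by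
    intro τ hτ
    obtain ⟨σ, hσ, x, y, hxy⟩ := hmeet τ hτ
    refine Finset.mem_biUnion.mpr ⟨(σ, x, y), Finset.mem_product.mpr ⟨hσ,
      Finset.mem_product.mpr ⟨Finset.mem_univ _, Finset.mem_univ _⟩⟩, Finset.mem_filter.mpr ⟨hτ, ?_⟩⟩
    intro x' hx'
    rw [Finset.mem_singleton.mp hx']
    exact hxy
  have hcard : (Emb T H Finset.univ).card ≤ A.card * (Fintype.card Z * Fintype.card Z) * Δ ^ m := by
    have h1 := Finset.card_le_card hcover
    refine h1.trans (Finset.card_biUnion_le.trans ?_)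
    calc _ ≤ ∑ _r ∈ A ×ˢ ((Finset.univ : Finset Z) ×ˢ (Finset.univ : Finset Z)), Δ ^ m := by
          refine Finset.sum_le_sum (fun r _ => ?_)
          refine rooted_count hΔ hT m _ _ (Finset.singleton_nonempty _) ?_
          rw [Finset.card_compl, Finset.card_singleton, hm]
          rfl
      _ = _ := by
          rw [Finset.sum_const, smul_eq_mul, Finset.card_product, Finset.card_product,
            Finset.card_univ]
  have hkn : (0 : ℝ) ≤ (n : ℝ) ^ Fintype.card Z * q ^ numEdges T := by positivity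
  calc ((Emb T H Finset.univ).card : ℝ)
      ≤ (A.card : ℝ) * ((Fintype.card Z : ℝ) * (Fintype.card Z : ℝ)) * (Δ : ℝ) ^ m := by
        exact_mod_cast hcard
    _ ≤ (9 * ((n : ℝ) ^ Fintype.card Z * q ^ numEdges T)) *
          ((Fintype.card Z : ℝ) * (Fintype.card Z : ℝ)) * (Δ : ℝ) ^ m := by
        apply mul_le_mul_of_nonneg_right _ (by positivity)
        exact mul_le_mul_of_nonneg_right hk (by positivity)
    _ = _ := by ring

end Vale.Agent.Lib.P064d
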