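import Vale.Agent.Lib.P064d.Main
import Vale.Agent.Lib.P064d.Disj

/-!
The bound on embeddings of all graphs into a host of bounded degree: peel the vertices of low
degree, split into connected components, and bound connected graphs of large minimum degree by the
disjoint copies.
-/

namespace Vale.Agent.Lib.P064d

open Finset SimpleGraph Vale.Agent.Lib.P064 Vale.Agent.Lib.P064k
open scoped Classical Nat

set_option linter.unusedSectionVars false
set_option linter.unusedVariables false

universe u v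

variable {V : Type v} [Fintype V] {H : SimpleGraph V} {n : ℕ} {q : ℝ}
variable {Z : Type u} [Fintype Z]

/-- The edges of a graph without edges between a set and its complement split. -/
lemma numEdges_split (T : SimpleGraph Z) (S : Z → Prop) (hS : ∀ x y, T.Adj x y → (S x ↔ S y)) :
    numEdges T = numEdges (T.comap (Subtype.val : {z : Z // S z} → Z)) +
      numEdges (T.comap (Subtype.val : {z : Z // ¬ S z} → Z)) := by
  set T₁ : SimpleGraph {z : Z // S z} := T.comap Subtype.val with hT₁
  set T₂ : SimpleGraph {z : Z // ¬ S z} := T.comap Subtype.val with hT₂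
  set A : Finset (Sym2 Z) := T₁.edgeFinset.image (Sym2.map Subtype.val) with hA
  set C : Finset (Sym2 Z) := T₂.edgeFinset.image (Sym2.map Subtype.val) with hC
  have hU : T.edgeFinset = A ∪ C := by
    ext e
    induction e using Sym2.ind with
    | _ a b =>
      rw [mem_edgeFinset, Finset.mem_union]
      constructor
      · intro hab
        have hab' : T.Adj a b := hab
        by_cases ha : S a
        · have hb : S b := (hS a b hab').mp ha
          refine Or.inl (Finset.mem_image.mpr ⟨s(⟨a, ha⟩, ⟨b, hb⟩), ?_, rfl⟩)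
          rw [mem_edgeFinset]
          exact hab'
        · have hb : ¬ S b := fun h => ha ((hS a b hab').mpr h)
          refine Or.inr (Finset.mem_image.mpr ⟨s(⟨a, ha⟩, ⟨b, hb⟩), ?_, rfl⟩)
          rw [mem_edgeFinset]
          exact hab'
      · rintro (h | h)
        · obtain ⟨e', he', h1⟩ := Finset.mem_image.mp h
          rw [mem_edgeFinset] at he'
          induction e' using Sym2.ind with
          | _ a' b' =>
            have h3 : T.Adj a'.1 b'.1 := he'
            have h4 : s(a'.1, b'.1) ∈ T.edgeSet := h3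
            have h5 : s(a'.1, b'.1) = s(a, b) := h1
            rw [h5] at h4
            exact h4
        · obtain ⟨e', he', h1⟩ := Finset.mem_image.mp h
          rw [mem_edgeFinset] at he'
          induction e' using Sym2.ind with
          | _ a' b' =>
            have h3 : T.Adj a'.1 b'.1 := he'
            have h4 : s(a'.1, b'.1) ∈ T.edgeSet := h3
            have h5 : s(a'.1, b'.1) = s(a, b) := h1
            rw [h5] at h4
            exact h4
  have hD : Disjoint A C := by
    rw [Finset.disjoint_left]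
    intro e h1 h2
    obtain ⟨e₁, _, rfl⟩ := Finset.mem_image.mp h1
    obtain ⟨e₂, _, h3⟩ := Finset.mem_image.mp h2
    induction e₁ using Sym2.ind with
    | _ a b =>
      have hm : a.1 ∈ Sym2.map (Subtype.val : {z : Z // ¬ S z} → Z) e₂ := by
        rw [h3]
        exact Sym2.mem_map.mpr ⟨a, Sym2.mem_mk_left _ _, rfl⟩
      obtain ⟨w, _, hw⟩ := Sym2.mem_map.mp hm
      have h4 : ¬ S a.1 := by
        rw [← hw]
        exact w.2
      exact h4 a.2
  have hAc : numEdges T₁ = A.card := by
    rw [hA, Finset.card_image_of_injective _ (Sym2.map.injective Subtype.val_injective)]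
    unfold numEdges
    rw [← coe_edgeFinset, Set.ncard_coe_finset]
  have hCc : numEdges T₂ = C.card := by
    rw [hC, Finset.card_image_of_injective _ (Sym2.map.injective Subtype.val_injective)]
    unfold numEdges
    rw [← coe_edgeFinset, Set.ncard_coe_finset]
  rw [numEdges_eq T, hU, Finset.card_union_of_disjoint hD, hAc, hCc]

lemma card_split (S : Z → Prop) :
    Fintype.card {z : Z // S z} + Fintype.card {z : Z // ¬ S z} = Fintype.card Z := by
  rw [Fintype.card_subtype_compl]
  have := Fintype.card_subtype_le S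
  omega

lemma emb_split (T : SimpleGraph Z) (S : Z → Prop) :
    (Emb T H Finset.univ).card ≤
      (Emb (T.comap (Subtype.val : {z : Z // S z} → Z)) H Finset.univ).card *
        (Emb (T.comap (Subtype.val : {z : Z // ¬ S z} → Z)) H Finset.univ).card := by
  rw [← Finset.card_product]
  refine Finset.card_le_card_of_injOn (fun f => (fun z => f z.val, fun z => f z.val)) ?_ ?_
  · intro f hf
    have hf' := Finset.mem_coe.mp hf
    rcases mem_Emb.mp hf' with ⟨h2, h3, _⟩
    refine Finset.mem_coe.mpr (Finset.mem_product.mpr ⟨?_, ?_⟩)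
    · refine mem_Emb.mpr ⟨?_, ?_, fun _ => Finset.mem_univ _⟩
      · intro a b hab
        exact Subtype.ext (h2 hab)
      · intro a b hab
        exact h3 _ _ hab
    · refine mem_Emb.mpr ⟨?_, ?_, fun _ => Finset.mem_univ _⟩
      · intro a b hab
        exact Subtype.ext (h2 hab)
      · intro a b hab
        exact h3 _ _ hab
  · intro f _ g _ hfg
    simp only [Prod.mk.injEq] at hfg
    funext z
    by_cases hz : S z
    · exact congrFun hfg.1 ⟨z, hz⟩
    · exact congrFun hfg.2 ⟨z, hz⟩

/-- One step of splitting along a set without edges to its complement. -/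
lemma split_step {A B : ℝ} (hA : 0 ≤ A) (hB : 0 ≤ B) (T : SimpleGraph Z) (S : Z → Prop)
    (hclosed : ∀ x y, T.Adj x y → (S x ↔ S y)) (h₁ : ∃ a, S a) (h₂ : ∃ b, ¬ S b)
    (ih : ∀ m < Fintype.card Z, ∀ (Z' : Type u) [Fintype Z'] (T' : SimpleGraph Z'),
      Fintype.card Z' = m → ((Emb T' H Finset.univ).card : ℝ) ≤ A ^ m * B ^ numEdges T') :
    ((Emb T H Finset.univ).card : ℝ) ≤ A ^ Fintype.card Z * B ^ numEdges T := by
  have hcs := card_split (Z := Z) S
  obtain ⟨a, ha⟩ := h₁
  obtain ⟨b, hb⟩ := h₂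
  have hc1 : 0 < Fintype.card {z : Z // S z} := Fintype.card_pos_iff.mpr ⟨⟨a, ha⟩⟩
  have hc2 : 0 < Fintype.card {z : Z // ¬ S z} := Fintype.card_pos_iff.mpr ⟨⟨b, hb⟩⟩
  have h1 := ih (Fintype.card {z : Z // S z}) (by omega) {z : Z // S z} (T.comap Subtype.val) rfl
  have h2 := ih (Fintype.card {z : Z // ¬ S z}) (by omega) {z : Z // ¬ S z}
    (T.comap Subtype.val) rfl
  have h3 := emb_split (H := H) T S
  have h3' : ((Emb T H Finset.univ).card : ℝ) ≤
      ((Emb (T.comap (Subtype.val : {z : Z // S z} → Z)) H Finset.univ).card : ℝ) *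
        ((Emb (T.comap (Subtype.val : {z : Z // ¬ S z} → Z)) H Finset.univ).card : ℝ) := by
    exact_mod_cast h3
  refine h3'.trans ((mul_le_mul h1 h2 (by positivity) (by positivity)).trans ?_)
  rw [numEdges_split T S hclosed]
  have h4 : A ^ Fintype.card Z = A ^ Fintype.card {z : Z // S z} *
      A ^ Fintype.card {z : Z // ¬ S z} := by
    rw [← pow_add, hcs]
  rw [h4, pow_add]
  apply le_of_eq
  ring

/-- The connected branch. -/
lemma conn_branch (hn : 1 ≤ n) (hq : 0 < q) (hq1 : q ≤ 1)
    (hyp : ∀ F : H.Subgraph, 1 ≤ expCopies n q F.coe) {d Δ : ℕ} {L : ℝ}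
    (hΔ : ∀ u, (Finset.univ.filter (fun w => H.Adj u w)).card ≤ Δ) (hΔ1 : 1 ≤ Δ) (hd1 : 1 ≤ d)
    (hL1 : 1 ≤ L) (hLd : (Δ : ℝ) ^ 2 ≤ L ^ d) {T : SimpleGraph Z} (hT : T.Connected)
    (hmin : ∀ y, d ≤ (Finset.univ.filter (fun z => T.Adj y z)).card) :
    ((Emb T H Finset.univ).card : ℝ) ≤ (9 * (n : ℝ)) ^ Fintype.card Z * (L * q) ^ numEdges T := by
  have hn0 : (0 : ℝ) < n := by exact_mod_cast hn
  have hL0 : 0 < L := by linarith
  have hno : ∀ z, ∃ y, T.Adj z y := by
    intro z
    have h1 := hmin z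
    have h2 : (Finset.univ.filter (fun w => T.Adj z w)).Nonempty := by
      rw [← Finset.card_pos]
      omega
    obtain ⟨y, hy⟩ := h2
    exact ⟨y, (Finset.mem_filter.mp hy).2⟩
  have hZ : Nonempty Z := hT.nonempty
  obtain ⟨m, hm⟩ : ∃ m, Fintype.card Z = m + 1 := by
    have : 0 < Fintype.card Z := Fintype.card_pos
    exact ⟨Fintype.card Z - 1, by omega⟩
  have h1 := emb_conn_deg hq hq1 hn hyp hΔ hT hno hm
  set v := Fintype.card Z with hv
  set e := numEdges T with he
  have hdv : d * v ≤ 2 * e := by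
    have hsum := T.sum_degrees_eq_twice_card_edges
    rw [← numEdges_eq] at hsum
    rw [← hsum]
    have hdeg : ∀ z : Z, d ≤ T.degree z := by
      intro z
      refine (hmin z).trans ?_
      rw [← card_neighborFinset_eq_degree]
      refine Finset.card_le_card ?_
      intro w hw
      rw [mem_neighborFinset]
      exact (Finset.mem_filter.mp hw).2
    calc d * v = ∑ _z : Z, d := by
          rw [Finset.sum_const, Finset.card_univ, smul_eq_mul, mul_comm]
      _ ≤ _ := Finset.sum_le_sum (fun z _ => hdeg z)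
  have hΔ1' : (1 : ℝ) ≤ Δ := by exact_mod_cast hΔ1
  have hΔv : (Δ : ℝ) ^ m ≤ L ^ e := by
    have h2 : ((Δ : ℝ) ^ v) ^ 2 ≤ (L ^ e) ^ 2 := by
      calc ((Δ : ℝ) ^ v) ^ 2 = ((Δ : ℝ) ^ 2) ^ v := by rw [← pow_mul, ← pow_mul, mul_comm]
        _ ≤ (L ^ d) ^ v := pow_le_pow_left₀ (by positivity) hLd v
        _ = L ^ (d * v) := by rw [← pow_mul]
        _ ≤ L ^ (2 * e) := pow_le_pow_right₀ hL1 hdv
        _ = (L ^ e) ^ 2 := by rw [← pow_mul, mul_comm]
    have h3 : (Δ : ℝ) ^ v ≤ L ^ e :=
      (pow_le_pow_iff_left₀ (by positivity) (by positivity) (by norm_num)).mp h2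
    exact (pow_le_pow_right₀ hΔ1' (by omega)).trans h3
  have hv9 : (9 : ℝ) * (v : ℝ) ^ 2 ≤ 9 ^ v := by
    have h2 : m < 3 ^ m := Nat.lt_pow_self (by norm_num)
    have h3 : v ≤ 3 ^ m := by omega
    have h4 : (v : ℝ) ≤ 3 ^ m := by exact_mod_cast h3
    have h5 : (v : ℝ) ^ 2 ≤ (3 ^ m) ^ 2 := pow_le_pow_left₀ (by positivity) h4 2
    have h6 : ((3 : ℝ) ^ m) ^ 2 = 9 ^ m := by
      rw [← pow_mul, mul_comm, pow_mul]
      norm_num
    rw [h6] at h5
    have h9 : (9 : ℝ) ^ v = 9 ^ m * 9 := by rw [hm, pow_succ]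
    rw [h9]
    linarith
  have hx : 0 ≤ (n : ℝ) ^ v * q ^ e := by positivity
  have hLe : 0 ≤ L ^ e := by positivity
  calc ((Emb T H Finset.univ).card : ℝ) ≤ (9 * ((n : ℝ) ^ v * q ^ e)) * ((v : ℝ) ^ 2 * (Δ : ℝ) ^ m) := h1
    _ = (9 * (v : ℝ) ^ 2) * (Δ : ℝ) ^ m * ((n : ℝ) ^ v * q ^ e) := by ring
    _ ≤ (9 ^ v) * L ^ e * ((n : ℝ) ^ v * q ^ e) := by
        apply mul_le_mul_of_nonneg_right _ hx
        exact mul_le_mul hv9 hΔv (by positivity) (by positivity)
    _ = _ := by
        rw [mul_pow, mul_pow]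
        ring

/-- The bound on embeddings of all graphs into a host of bounded degree. -/
theorem emb_deg (hn : 1 ≤ n) (hq : 0 < q) (hq1 : q ≤ 1) (hV : Fintype.card V ≤ n)
    (hyp : ∀ F : H.Subgraph, 1 ≤ expCopies n q F.coe) {d Δ : ℕ} {M L : ℝ} (hP : Param n q d M)
    (hΔ : ∀ u, (Finset.univ.filter (fun w => H.Adj u w)).card ≤ Δ) (hΔ1 : 1 ≤ Δ)
    (hL1 : 1 ≤ L) (hLd : (Δ : ℝ) ^ 2 ≤ L ^ d) :
    ∀ (k : ℕ) (Z : Type u) [Fintype Z] (T : SimpleGraph Z), Fintype.card Z = k →
      ((Emb T H Finset.univ).card : ℝ) ≤ (9 * (n : ℝ)) ^ k * (L * q) ^ numEdges T := by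
  have hn0 : (0 : ℝ) < n := by exact_mod_cast hn
  have hL0 : 0 < L := by linarith
  have hd1 : 1 ≤ d := hP.hd1
  intro k
  induction k using Nat.strong_induction_on with
  | _ k ih =>
    intro Z _ T hZ
    by_cases hZne : Nonempty Z
    swap
    · -- no vertices
      have hE : IsEmpty Z := not_nonempty_iff.mp hZne
      have h0 : k = 0 := by
        rw [← hZ]
        exact Fintype.card_eq_zero
      have h1 : (Emb T H Finset.univ).card ≤ 1 := by
        refine Finset.card_le_one.mpr ?_
        intro a _ b _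
        funext x
        exact hE.elim x
      have h2 : numEdges T = 0 := by
        rw [numEdges_eq]
        refine Finset.card_eq_zero.mpr (Finset.eq_empty_of_forall_notMem ?_)
        intro e
        induction e using Sym2.ind with
        | _ a b => exact hE.elim a
      rw [h0, h2, pow_zero, pow_zero, mul_one]
      exact_mod_cast h1
    by_cases hlow : ∃ y, (Finset.univ.filter (fun z => T.Adj y z)).card < d
    · obtain ⟨y, hy⟩ := hlow
      set Z' := {z : Z // z ≠ y} with hZ'
      set T' : SimpleGraph Z' := T.comap Subtype.val with hT'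
      obtain ⟨k', hk'⟩ : ∃ k', k = k' + 1 := by
        have : 0 < Fintype.card Z := Fintype.card_pos
        exact ⟨k - 1, by omega⟩
      have hZ'card : Fintype.card Z' = k' := by
        have h1 : Fintype.card {z : Z // z ≠ y} = Fintype.card Z - 1 := by
          have h2 : Fintype.card {z : Z // z ≠ y} = (Finset.univ.erase y).card := by
            rw [Fintype.card_subtype]
            congr 1
            ext z
            simp
          rw [h2, Finset.card_erase_of_mem (Finset.mem_univ _), Finset.card_univ]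
        rw [hZ, hk', Nat.add_sub_cancel] at h1
        convert h1 using 1
      set D := (Finset.univ.filter (fun z => T.Adj y z)).card with hD
      have hih := ih k' (by omega) Z' T' hZ'card
      have hedges : numEdges T = numEdges T' + D := numEdges_peel T y
      have hc : ∀ g ∈ Emb T' H Finset.univ,
          ((cn H (((Finset.univ : Finset {z : Z // z ≠ y}).filter
            (fun z' => T.Adj y z'.1)).image g)).card : ℝ) ≤ 9 * n * q ^ D := by
        intro g hg
        have hg' := (mem_Emb.mp hg).1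
        have h1 : (((Finset.univ : Finset {z : Z // z ≠ y}).filter
            (fun z' => T.Adj y z'.1)).image g).card = D := by
          rw [Finset.card_image_of_injective _ hg', card_nbrs_peel]
        have h2 := cn_low hq hn hV hyp hP (B := ((Finset.univ : Finset {z : Z // z ≠ y}).filter
            (fun z' => T.Adj y z'.1)).image g) (by rw [h1]; exact hy)
        rwa [h1] at h2
      have h3 := emb_peel T y hc
      have hqL : q ≤ L * q := by nlinarith
      have hqD : q ^ D ≤ (L * q) ^ D := pow_le_pow_left₀ hq.le hqL D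
      calc ((Emb T H Finset.univ).card : ℝ) ≤ ((Emb T' H Finset.univ).card : ℝ) * (9 * n * q ^ D) := h3
        _ ≤ ((9 * (n : ℝ)) ^ k' * (L * q) ^ numEdges T') * (9 * n * q ^ D) :=
            mul_le_mul_of_nonneg_right hih (by positivity)
        _ ≤ ((9 * (n : ℝ)) ^ k' * (L * q) ^ numEdges T') * (9 * n * (L * q) ^ D) := by
            apply mul_le_mul_of_nonneg_left _ (by positivity)
            exact mul_le_mul_of_nonneg_left hqD (by positivity)
        _ = _ := by
            rw [hedges, pow_add, hk', pow_succ]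
            ring
    · push Not at hlow
      by_cases hT : T.Connected
      · have := conn_branch hn hq hq1 hyp hΔ hΔ1 hd1 hL1 hLd hT hlow
        rwa [hZ] at this
      · -- split along a component
        have hnp : ¬ T.Preconnected := fun h => hT ⟨h⟩
        unfold SimpleGraph.Preconnected at hnp
        push Not at hnp
        obtain ⟨a, b, hab⟩ := hnp
        have hclosed : ∀ x y, T.Adj x y → (T.Reachable a x ↔ T.Reachable a y) := by
          intro x y hxy
          exact ⟨fun h => h.trans hxy.reachable, fun h => h.trans hxy.reachable.symm⟩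
        have h := split_step (H := H) (A := 9 * (n : ℝ)) (B := L * q) (by positivity)
          (by positivity) T (fun z => T.Reachable a z) hclosed ⟨a, SimpleGraph.Reachable.refl a⟩
          ⟨b, hab⟩ (by rw [hZ]; exact ih)
        rwa [hZ] at h

/-- The bound in the form needed for the spread lemma. -/
theorem emb_deg_bound (hn : 1 ≤ n) (hq : 0 < q) (hq1 : q ≤ 1) (hV : Fintype.card V ≤ n)
    (hyp : ∀ F : H.Subgraph, 1 ≤ expCopies n q F.coe) {d Δ : ℕ} {M L : ℝ} (hP : Param n q d M)
    (hΔ : ∀ u, (Finset.univ.filter (fun w => H.Adj u w)).card ≤ Δ) (hΔ1 : 1 ≤ Δ)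
    (hL1 : 1 ≤ L) (hLd : (Δ : ℝ) ^ 2 ≤ L ^ d) (F : SimpleGraph Z) :
    ((Emb F H Finset.univ).card : ℝ) ≤ (n.descFactorial (Fintype.card Z) : ℝ) *
      (729 * (L * q)) ^ numEdges F := by
  have hL0 : 0 < L := by linarith
  refine emb_strip (by positivity) hV (fun Z _ F hno => ?_) (Fintype.card Z) Z F rfl
  have h1 := emb_deg hn hq hq1 hV hyp hP hΔ hΔ1 hL1 hLd (Fintype.card Z) Z F rfl
  set e := numEdges F with he
  set v := Fintype.card Z with hv
  have hve : v ≤ 2 * e := card_le_two_edges F hno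
  by_cases hvn : v ≤ n
  swap
  · have h0 : Emb F H Finset.univ = ∅ := by
      refine Finset.eq_empty_of_forall_notMem fun f hf => ?_
      rcases mem_Emb.mp hf with ⟨h2, _, _⟩
      have := Fintype.card_le_of_injective f h2
      omega
    rw [h0]
    simp only [Finset.card_empty, Nat.cast_zero]
    positivity
  have h2 := pow_le_three_desc hvn
  have hdn : (0 : ℝ) ≤ (n.descFactorial v : ℝ) := by positivity
  have h27 : (27 : ℝ) ^ v ≤ 729 ^ e := by
    have : (729 : ℝ) ^ e = 27 ^ (2 * e) := by
      rw [pow_mul]; norm_num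
    rw [this]
    exact pow_le_pow_right₀ (by norm_num) hve
  have h3 : (9 * (n : ℝ)) ^ v ≤ 729 ^ e * (n.descFactorial v : ℝ) := by
    calc (9 * (n : ℝ)) ^ v = 9 ^ v * (n : ℝ) ^ v := mul_pow _ _ _
      _ ≤ 9 ^ v * (3 ^ v * (n.descFactorial v : ℝ)) := mul_le_mul_of_nonneg_left h2 (by positivity)
      _ = 27 ^ v * (n.descFactorial v : ℝ) := by rw [← mul_assoc, ← mul_pow]; norm_num
      _ ≤ _ := mul_le_mul_of_nonneg_right h27 hdn
  calc ((Emb F H Finset.univ).card : ℝ) ≤ (9 * (n : ℝ)) ^ v * (L * q) ^ e := h1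
    _ ≤ (729 ^ e * (n.descFactorial v : ℝ)) * (L * q) ^ e :=
        mul_le_mul_of_nonneg_right h3 (by positivity)
    _ = _ := by rw [mul_pow 729 (L * q) e]; ring

/-- The bound for `p_c` in a host of bounded degree. -/
theorem pCrit_deg (hn : 2 ≤ n) (hV : Fintype.card V ≤ n) (hE : 1 ≤ numEdges H) {q : ℝ}
    (hqE : pExp n H ≤ q) (hq1 : q ≤ 1) {Δ : ℕ}
    (hΔ : ∀ u, (Finset.univ.filter (fun w => H.Adj u w)).card ≤ Δ) (hΔ1 : 1 ≤ Δ) :
    pCrit n H ≤ 419904 * q * Real.log n *
      Real.exp (4 * Real.log Δ * (-Real.log q) / Real.log n) := by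
  have hn0 : (0 : ℝ) < n := by
    have : 0 < n := by omega
    exact_mod_cast this
  have hN2 : Real.log 2 ≤ Real.log n :=
    Real.log_le_log (by norm_num) (by exact_mod_cast hn)
  have hl2 := Real.log_two_gt_d9
  set N := Real.log n with hN
  have hN0 : 0 < N := by linarith
  have hNlow : (0.69 : ℝ) < N := by linarith
  obtain ⟨hp0, _, hp⟩ := pExp_mem (H := H) hV
  obtain ⟨hppos, hyp2⟩ := hyp_double hV hE hp0 hp
  have hq0 : 0 < q := lt_of_lt_of_le hppos hqE
  have hΔ1' : (1 : ℝ) ≤ Δ := by exact_mod_cast hΔ1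
  have hlogΔ : 0 ≤ Real.log Δ := Real.log_nonneg hΔ1'
  have hlq0 : Real.log q ≤ 0 := Real.log_nonpos hq0.le hq1
  set q₁ := 3 * q with hq₁
  have hq₁0 : 0 < q₁ := by positivity
  have hyp1 : ∀ F : H.Subgraph, 1 ≤ expCopies n q₁ F.coe := fun F =>
    (hyp2 F).trans (expCopies_mono (by positivity) (by rw [hq₁]; linarith) _)
  have hexp2 : 1 ≤ Real.exp (4 * Real.log Δ * (-Real.log q) / N) := by
    apply Real.one_le_exp
    apply div_nonneg _ hN0.le
    have : 0 ≤ -Real.log q := by linarith
    positivity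
  by_cases hsmall : q₁ ≤ Real.exp (-1)
  · have hq₁1 : q₁ ≤ 1 := hsmall.trans (Real.exp_le_one_iff.mpr (by norm_num))
    set l := -Real.log q₁ with hl
    have hl1 : 1 ≤ l := by
      have h1 := Real.log_le_log hq₁0 hsmall
      rw [Real.log_exp] at h1
      rw [hl]
      linarith
    have hqexp : q₁ = Real.exp (-l) := by
      rw [hl, neg_neg, Real.exp_log hq₁0]
    have hnexp : (n : ℝ) = Real.exp N := by
      rw [hN, Real.exp_log hn0]
    obtain ⟨d, hd1, hdmin, hd2, hdN, hlow⟩ := aux_depth hl1 hNlow hnexp hqexp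
    have hP : Param n q₁ d ((N + 4) ^ 2) := by
      refine ⟨hd1, hdmin, hd2, ?_⟩
      calc (d : ℝ) * N ≤ (N + 4) * N := mul_le_mul_of_nonneg_right hdN hN0.le
        _ ≤ _ := by nlinarith
    set L := Real.exp (4 * Real.log Δ * l / N) with hL
    have hl0 : 0 < l := by linarith
    have hL1 : 1 ≤ L := by
      apply Real.one_le_exp
      positivity
    have hL0 : 0 < L := by linarith
    have hLd : (Δ : ℝ) ^ 2 ≤ L ^ d := by
      have hΔ0 : (0 : ℝ) < Δ := by linarith
      have h1 : (Δ : ℝ) ^ 2 = Real.exp (2 * Real.log Δ) := by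
        rw [← Real.exp_log hΔ0, ← Real.exp_nat_mul, Real.log_exp]
        norm_num
      rw [h1, hL, ← Real.exp_nat_mul]
      apply Real.exp_le_exp.mpr
      have h2 : (d : ℝ) * (4 * Real.log Δ * l / N) = (2 * Real.log Δ) * (2 * d * l / N) := by
        ring
      rw [h2]
      have h3 : 1 ≤ 2 * (d : ℝ) * l / N := by
        rw [one_le_div hN0]
        exact hlow
      nlinarith
    have hbd : EmbBound H n (729 * (L * q₁)) := by
      intro Z _ F
      exact emb_deg_bound (by omega) hq₁0 hq₁1 hV hyp1 hP hΔ hΔ1 hL1 hLd F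
    have h1 := pCrit_le_of_bound (by positivity) hV hbd
    have hlr := log_edges_le hn hV hE
    have hlr0 : (0 : ℝ) ≤ (Nat.log 2 (numEdges H) : ℝ) + 1 := by positivity
    have hLle : L ≤ Real.exp (4 * Real.log Δ * (-Real.log q) / N) := by
      apply Real.exp_le_exp.mpr
      apply div_le_div_of_nonneg_right _ hN0.le
      apply mul_le_mul_of_nonneg_left _ (by positivity)
      have hlqq : Real.log q ≤ Real.log q₁ := Real.log_le_log hq0 (by rw [hq₁]; linarith)
      rw [hl]
      linarith
    calc pCrit n H ≤ 729 * (L * q₁) * (32 * ((Nat.log 2 (numEdges H) : ℝ) + 1)) := h1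
      _ ≤ 729 * (L * q₁) * (32 * (6 * N)) := by
          apply mul_le_mul_of_nonneg_left _ (by positivity)
          linarith
      _ = 419904 * q * N * L := by
          rw [hq₁]
          ring
      _ ≤ _ := mul_le_mul_of_nonneg_left hLle (by positivity)
  · push Not at hsmall
    have hPbd : BddBelow {p : ℝ | 0 ≤ p ∧ p ≤ 1 ∧
        1 / 2 ≤ gnpProb n p (fun G => 0 < G.copyCount H)} := ⟨0, fun p hp => hp.1⟩
    have h1 : pCrit n H ≤ 1 := csInf_le hPbd ⟨zero_le_one, le_rfl, gnp_one hV⟩
    have hexpm : (1 : ℝ) / 3 ≤ Real.exp (-1) := by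
      rw [Real.exp_neg, inv_eq_one_div]
      exact one_div_le_one_div_of_le (Real.exp_pos 1) (by
        have := Real.exp_one_lt_d9
        linarith)
    have hq9 : (1 : ℝ) / 9 ≤ q := by
      rw [hq₁] at hsmall
      linarith
    have h2 : 1 ≤ 419904 * q * N := by
      have h4 : (1 / 9 : ℝ) * (0.69 : ℝ) ≤ q * N := by
        apply mul_le_mul hq9 (by linarith) (by norm_num) hq0.le
      nlinarith
    have h3 : 419904 * q * N * 1 ≤ 419904 * q * N * Real.exp (4 * Real.log Δ * (-Real.log q) / N) :=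
      mul_le_mul_of_nonneg_left hexp2 (by positivity)
    linarith

lemma ncard_nbr (u : V) :
    (H.neighborSet u).ncard = (Finset.univ.filter (fun w => H.Adj u w)).card := by
  rw [← Set.ncard_coe_finset]
  congr 1
  ext w
  simp

lemma ncard_inter_nbr (S : Set V) (u : V) :
    (S ∩ H.neighborSet u).ncard =
      ((Finset.univ.filter (fun w => w ∈ S)).filter (fun w => H.Adj u w)).card := by
  rw [← Set.ncard_coe_finset]
  congr 1
  ext w
  simp

/-- The bound for `p_c` with the loss in terms of the maximum degree and a dense core. -/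
theorem pCrit_core (hn : 2 ≤ n) (hV : Fintype.card V ≤ n) (hE : 1 ≤ numEdges H) {Δ k : ℕ}
    (hΔ : ∀ u, (H.neighborSet u).ncard ≤ Δ) (hΔ1 : 1 ≤ Δ) (hk : 1 ≤ k) {S : Set V}
    (hS : S.Nonempty) (hSk : ∀ u ∈ S, k ≤ (S ∩ H.neighborSet u).ncard) :
    pCrit n H ≤ 839808 * Real.exp (8 * Real.log Δ / k) * pExp n H * Real.log n := by
  have hn0 : (0 : ℝ) < n := by
    have : 0 < n := by omega
    exact_mod_cast this
  have hN2 : Real.log 2 ≤ Real.log n :=
    Real.log_le_log (by norm_num) (by exact_mod_cast hn)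
  have hl2 := Real.log_two_gt_d9
  set N := Real.log n with hN
  have hN0 : 0 < N := by linarith
  obtain ⟨hp0, _, hp⟩ := pExp_mem (H := H) hV
  obtain ⟨hppos, hyp2⟩ := hyp_double hV hE hp0 hp
  set p := pExp n H with hpdef
  have hΔ1' : (1 : ℝ) ≤ Δ := by exact_mod_cast hΔ1
  have hlogΔ : 0 ≤ Real.log Δ := Real.log_nonneg hΔ1'
  have hk0 : (0 : ℝ) < k := by exact_mod_cast hk
  have hexp1 : 1 ≤ Real.exp (8 * Real.log Δ / k) := by
    apply Real.one_le_exp
    positivity
  by_cases h2p : 2 * p ≤ 1
  · have hΔf : ∀ u, (Finset.univ.filter (fun w => H.Adj u w)).card ≤ Δ := by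
      intro u
      rw [← ncard_nbr]
      exact hΔ u
    have h1 := pCrit_deg (H := H) hn hV hE (q := 2 * p) (by linarith) h2p hΔf hΔ1
    have hq0 : 0 < 2 * p := by positivity
    have hlog : -Real.log (2 * p) ≤ 2 * N / k := by
      have hone : 1 ≤ (n : ℝ) ^ 2 * (2 * p) ^ k := by
        by_contra hlt
        push Not at hlt
        obtain ⟨k', rfl⟩ : ∃ k', k = k' + 1 := ⟨k - 1, by omega⟩
        obtain ⟨a, ha⟩ := hS
        have hSne : (Finset.univ.filter (fun w => w ∈ S)).Nonempty :=
          ⟨a, Finset.mem_filter.mpr ⟨Finset.mem_univ _, ha⟩⟩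
        obtain ⟨u, hu, hule⟩ := exists_low hq0 h2p (by omega) hyp2 hlt hSne
        have h2 := hSk u (Finset.mem_filter.mp hu).2
        rw [ncard_inter_nbr] at h2
        omega
      have h3 := Real.log_le_log (by norm_num) hone
      rw [Real.log_one, Real.log_mul (by positivity) (by positivity), Real.log_pow, Real.log_pow,
        ← hN] at h3
      rw [le_div_iff₀ hk0]
      push_cast at h3
      linarith
    have hex : Real.exp (4 * Real.log Δ * (-Real.log (2 * p)) / N) ≤
        Real.exp (8 * Real.log Δ / k) := by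
      apply Real.exp_le_exp.mpr
      rw [div_le_iff₀ hN0]
      have h2 : 4 * Real.log Δ * (-Real.log (2 * p)) ≤ 4 * Real.log Δ * (2 * N / k) :=
        mul_le_mul_of_nonneg_left hlog (by positivity)
      calc _ ≤ _ := h2
        _ = _ := by ring
    calc pCrit n H ≤ 419904 * (2 * p) * N * Real.exp (4 * Real.log Δ * (-Real.log (2 * p)) / N) := h1
      _ ≤ 419904 * (2 * p) * N * Real.exp (8 * Real.log Δ / k) :=
          mul_le_mul_of_nonneg_left hex (by positivity)
      _ = _ := by ring
  · push Not at h2p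
    have hPbd : BddBelow {p : ℝ | 0 ≤ p ∧ p ≤ 1 ∧
        1 / 2 ≤ gnpProb n p (fun G => 0 < G.copyCount H)} := ⟨0, fun p hp => hp.1⟩
    have h1 : pCrit n H ≤ 1 := csInf_le hPbd ⟨zero_le_one, le_rfl, gnp_one hV⟩
    have h2 : 1 ≤ 839808 * p * N := by
      have h4 : (1 / 2 : ℝ) * (0.69 : ℝ) ≤ p * N := by
        apply mul_le_mul (by linarith) (by linarith) (by norm_num) hppos.le
      nlinarith
    have h3 : 839808 * p * N * 1 ≤ 839808 * p * N * Real.exp (8 * Real.log Δ / k) :=
      mul_le_mul_of_nonneg_left hexp1 (by positivity)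
    calc pCrit n H ≤ 1 := h1
      _ ≤ 839808 * p * N := h2
      _ ≤ 839808 * p * N * Real.exp (8 * Real.log Δ / k) := by linarith
      _ = _ := by ring

/-- The first question holds for all regular graphs. -/
theorem pCrit_regular (hn : 2 ≤ n) (hV : Fintype.card V ≤ n) (hE : 1 ≤ numEdges H) {Δ : ℕ}
    (hΔ : ∀ u, (H.neighborSet u).ncard = Δ) :
    pCrit n H ≤ (839808 * Real.exp 8) * pExp n H * Real.log n := by
  have hn0 : (0 : ℝ) < n := by
    have : 0 < n := by omega
    exact_mod_cast this
  have hN2 : Real.log 2 ≤ Real.log n :=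
    Real.log_le_log (by norm_num) (by exact_mod_cast hn)
  have hl2 := Real.log_two_gt_d9
  have hN0 : 0 < Real.log n := by linarith
  obtain ⟨hp0, _, hp⟩ := pExp_mem (H := H) hV
  -- there is an edge
  have hedge : ∃ a b, H.Adj a b := by
    by_contra hcon
    push Not at hcon
    have h0 : numEdges H = 0 := by
      rw [numEdges_eq]
      refine Finset.card_eq_zero.mpr (Finset.eq_empty_of_forall_notMem ?_)
      intro e
      induction e using Sym2.ind with
      | _ a b =>
        rw [mem_edgeFinset]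
        exact hcon a b
    omega
  obtain ⟨a, b, hab⟩ := hedge
  have hΔ1 : 1 ≤ Δ := by
    rw [← hΔ a, ncard_nbr]
    exact Finset.card_pos.mpr ⟨b, Finset.mem_filter.mpr ⟨Finset.mem_univ _, hab⟩⟩
  have h1 := pCrit_core hn hV hE (Δ := Δ) (k := Δ) (fun u => (hΔ u).le) hΔ1 hΔ1
    (S := Set.univ) ⟨a, Set.mem_univ _⟩ (fun u _ => by rw [Set.univ_inter, hΔ u])
  have hΔ0 : (0 : ℝ) < Δ := by exact_mod_cast hΔ1
  have hex : Real.exp (8 * Real.log Δ / Δ) ≤ Real.exp 8 := by
    apply Real.exp_le_exp.mpr
    rw [div_le_iff₀ hΔ0]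
    have := Real.log_le_sub_one_of_pos hΔ0
    nlinarith
  refine h1.trans ?_
  apply mul_le_mul_of_nonneg_right _ hN0.le
  apply mul_le_mul_of_nonneg_right _ hp0
  exact mul_le_mul_of_nonneg_left hex (by norm_num)

end Vale.Agent.Lib.P064d
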