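import Vale.Agent.Lib.P064d.Bound

/-!
The parameters of the proof and the bound for `p_c` near density one.
-/

namespace Vale.Agent.Lib.P064d

open Finset SimpleGraph Vale.Agent.Lib.P064 Vale.Agent.Lib.P064k
open scoped Classical Nat

set_option linter.unusedSectionVars false
set_option linter.unusedVariables false

variable {V : Type} [Fintype V] {H : SimpleGraph V} {n : ℕ}

lemma exp3_ge : (20 : ℝ) ≤ Real.exp 3 := by
  have h1 : Real.exp 3 = Real.exp 1 ^ 3 := by
    rw [← Real.exp_nat_mul]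
    norm_num
  rw [h1]
  have h2 := Real.exp_one_gt_d9
  have h3 : (2.715 : ℝ) ^ 3 ≤ Real.exp 1 ^ 3 := pow_le_pow_left₀ (by norm_num) (by linarith) 3
  have h4 : (20 : ℝ) ≤ (2.715 : ℝ) ^ 3 := by norm_num
  linarith

lemma pow_exp {q l : ℝ} (hq : q = Real.exp (-l)) (k : ℕ) : q ^ k = Real.exp (-(k * l)) := by
  rw [hq, ← Real.exp_nat_mul]
  congr 1
  ring

/-- The degeneracy parameter. -/
lemma aux_delta {q N l : ℝ} (hl1 : 1 ≤ l) (hN0 : 0 < N) (hn : (n : ℝ) = Real.exp N)
    (hq : q = Real.exp (-l)) : ∃ δ : ℕ, (n : ℝ) ^ 2 * q ^ (δ + 1) < 1 ∧ (δ : ℝ) ≤ 2 * N := by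
  have hl0 : 0 < l := by linarith
  refine ⟨⌊2 * N / l⌋₊, ?_, ?_⟩
  · set δ := ⌊2 * N / l⌋₊ with hδdef
    have hδ1 : 2 * N / l < (δ : ℝ) + 1 := Nat.lt_floor_add_one _
    have hδ2 : 2 * N < ((δ : ℝ) + 1) * l := by
      rwa [div_lt_iff₀ hl0] at hδ1
    rw [pow_exp hq, hn, ← Real.exp_nat_mul, ← Real.exp_add, Real.exp_lt_one_iff]
    push_cast
    linarith
  · have h1 : (⌊2 * N / l⌋₊ : ℝ) ≤ 2 * N / l := Nat.floor_le (by positivity)
    have h2 : 2 * N / l ≤ 2 * N := div_le_self (by positivity) hl1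
    linarith

/-- The depth parameter. -/
lemma aux_depth {q N l : ℝ} (hl1 : 1 ≤ l) (hNlow : (0.69 : ℝ) < N) (hn : (n : ℝ) = Real.exp N)
    (hq : q = Real.exp (-l)) : ∃ d : ℕ, 1 ≤ d ∧
      (∀ s : ℕ, 1 ≤ s → s < d → (s : ℝ) * N < 9 * n * q ^ s) ∧
      9 * (n : ℝ) * q ^ d ≤ d * N ∧ (d : ℝ) ≤ N + 4 ∧ N ≤ 2 * d * l := by
  have hl0 : 0 < l := by linarith
  have hN0 : 0 < N := by linarith
  have hn0 : (0 : ℝ) < n := by
    rw [hn]
    exact Real.exp_pos _
  have hexp3 := exp3_ge
  set d' := ⌈(N + 3) / l⌉₊ with hd'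
  have hd'1 : 1 ≤ d' := by
    rw [hd']
    exact Nat.one_le_ceil_iff.mpr (by positivity)
  have hd'2 : (N + 3) / l ≤ (d' : ℝ) := Nat.le_ceil _
  have hd'3 : N + 3 ≤ (d' : ℝ) * l := by
    rwa [div_le_iff₀ hl0] at hd'2
  have hPd' : 1 ≤ d' ∧ 9 * (n : ℝ) * q ^ d' ≤ d' * N := by
    refine ⟨hd'1, ?_⟩
    have h1 : q ^ d' ≤ Real.exp (-(N + 3)) := by
      rw [pow_exp hq]
      exact Real.exp_le_exp.mpr (by linarith)
    have h2 : (n : ℝ) * Real.exp (-(N + 3)) = Real.exp (-3) := by
      rw [hn, ← Real.exp_add]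
      congr 1
      ring
    have h3 : Real.exp (-3) ≤ 1 / 20 := by
      rw [Real.exp_neg, inv_eq_one_div]
      exact one_div_le_one_div_of_le (by norm_num) hexp3
    have h4 : (1 : ℝ) ≤ d' := by exact_mod_cast hd'1
    calc 9 * (n : ℝ) * q ^ d' ≤ 9 * (n : ℝ) * Real.exp (-(N + 3)) :=
          mul_le_mul_of_nonneg_left h1 (by positivity)
      _ = 9 * Real.exp (-3) := by rw [mul_assoc, h2]
      _ ≤ 9 * (1 / 20) := by linarith
      _ ≤ 1 * N := by linarith
      _ ≤ _ := mul_le_mul_of_nonneg_right h4 hN0.le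
  have hex : ∃ d : ℕ, 1 ≤ d ∧ 9 * (n : ℝ) * q ^ d ≤ d * N := ⟨d', hPd'⟩
  obtain ⟨hd1, hd2⟩ := Nat.find_spec hex
  have hdle : Nat.find hex ≤ d' := Nat.find_min' hex hPd'
  refine ⟨Nat.find hex, hd1, ?_, hd2, ?_, ?_⟩
  · intro s hs hsd
    have h1 := Nat.find_min hex hsd
    by_contra h2
    push Not at h2
    exact h1 ⟨hs, h2⟩
  · have h1 : (d' : ℝ) < (N + 3) / l + 1 := Nat.ceil_lt_add_one (by positivity)
    have h2 : (N + 3) / l ≤ N + 3 := div_le_self (by positivity) hl1
    have h3 : ((Nat.find hex : ℕ) : ℝ) ≤ d' := by exact_mod_cast hdle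
    linarith
  · set d := Nat.find hex with hd
    by_contra hcon
    push Not at hcon
    have hexpN : N ≤ 4 * Real.exp (N / 4) := by
      have := Real.add_one_le_exp (N / 4)
      linarith
    have hsq : N ^ 2 ≤ 16 * Real.exp (N / 2) := by
      have h1 : Real.exp (N / 2) = Real.exp (N / 4) ^ 2 := by
        rw [← Real.exp_nat_mul]
        congr 1
        push_cast
        ring
      rw [h1]
      have h2 : N ^ 2 ≤ (4 * Real.exp (N / 4)) ^ 2 := pow_le_pow_left₀ hN0.le hexpN 2
      calc N ^ 2 ≤ _ := h2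
        _ = _ := by ring
    have h1 : Real.exp (-(N / 2)) < q ^ d := by
      rw [pow_exp hq]
      exact Real.exp_lt_exp.mpr (by linarith)
    have h2 : 9 * Real.exp (N / 2) < 9 * (n : ℝ) * q ^ d := by
      have h3 : Real.exp (N / 2) = (n : ℝ) * Real.exp (-(N / 2)) := by
        rw [hn, ← Real.exp_add]
        congr 1
        ring
      rw [h3, mul_assoc]
      have h4 : (n : ℝ) * Real.exp (-(N / 2)) < (n : ℝ) * q ^ d :=
        mul_lt_mul_of_pos_left h1 hn0
      linarith
    have hdl : (d : ℝ) ≤ (d : ℝ) * l := le_mul_of_one_le_right (by positivity) hl1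
    have h5 : (d : ℝ) * N ≤ N ^ 2 / 2 := by
      have h6 : (d : ℝ) ≤ N / 2 := by linarith
      calc (d : ℝ) * N ≤ (N / 2) * N := mul_le_mul_of_nonneg_right h6 hN0.le
        _ = _ := by ring
    have h7 := Real.exp_pos (N / 2)
    linarith

/-- The final numerical inequality. -/
lemma aux_final {q N l : ℝ} {d : ℕ} (hl1 : 1 ≤ l) (hNlow : (0.69 : ℝ) < N)
    (hq : q = Real.exp (-l)) (hlow : N ≤ 2 * d * l) :
    ((N + 4) ^ 2 / q) ^ 2 ≤
      (Real.exp (30 * (l / Real.sqrt N) + 4 * (l / Real.sqrt N) ^ 2)) ^ d := by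
  have hl0 : 0 < l := by linarith
  have hN0 : 0 < N := by linarith
  have hq0 : 0 < q := by
    rw [hq]
    exact Real.exp_pos _
  set r := Real.sqrt N with hr
  have hrr : r * r = N := Real.mul_self_sqrt hN0.le
  have hr0 : 0 < r := Real.sqrt_pos.mpr hN0
  have hrlow : (0.83 : ℝ) ≤ r := by
    by_contra h
    push Not at h
    have : r * r < 0.83 * 0.83 := mul_lt_mul'' h h hr0.le hr0.le
    norm_num at this
    linarith
  set a := l / r with ha
  have ha0 : 0 < a := by positivity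
  have har : a * r = l := by
    rw [ha]
    field_simp
  set w := 2 * (d : ℝ) * a with hw
  have h2da : r ≤ w := by
    have h1 : r * r ≤ w * r := by
      calc r * r = N := hrr
        _ ≤ 2 * d * l := hlow
        _ = _ := by rw [← har, hw]; ring
    exact le_of_mul_le_mul_right h1 hr0
  have hN4 : N + 4 ≤ Real.exp (3.5 * r) := by
    have h1 := Real.quadratic_le_exp_of_nonneg (x := 3.5 * r) (by positivity)
    have h2 : (3.5 * r) ^ 2 / 2 = 6.125 * (r * r) := by ring
    rw [h2, hrr] at h1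
    linarith
  have hN40 : 0 < N + 4 := by linarith
  have h1 : (1 : ℝ) / q = Real.exp l := by
    rw [hq, one_div, ← Real.exp_neg, neg_neg]
  have h2 : ((N + 4) ^ 2 / q) ^ 2 = (N + 4) ^ 4 * Real.exp (2 * l) := by
    have h3 : Real.exp (2 * l) = Real.exp l ^ 2 := by
      rw [← Real.exp_nat_mul]
      norm_num
    rw [h3, ← h1]
    field_simp
  have h4 : (N + 4) ^ 4 ≤ Real.exp (14 * r) := by
    have h5 : Real.exp (14 * r) = Real.exp (3.5 * r) ^ 4 := by
      rw [← Real.exp_nat_mul]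
      congr 1
      push_cast
      ring
    rw [h5]
    exact pow_le_pow_left₀ hN40.le hN4 4
  rw [h2, ← Real.exp_nat_mul]
  calc (N + 4) ^ 4 * Real.exp (2 * l) ≤ Real.exp (14 * r) * Real.exp (2 * l) :=
        mul_le_mul_of_nonneg_right h4 (Real.exp_pos _).le
    _ = Real.exp (14 * r + 2 * l) := (Real.exp_add _ _).symm
    _ ≤ _ := by
        apply Real.exp_le_exp.mpr
        have h6 : 2 * a * r ≤ 2 * a * w := mul_le_mul_of_nonneg_left h2da (by positivity)
        have h7 : 2 * a * r = 2 * l := by rw [← har]; ring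
        have h8 : (d : ℝ) * (30 * a + 4 * a ^ 2) = 15 * w + 2 * a * w := by
          rw [hw]
          ring
        rw [h8]
        linarith

/-- The parameters exist. -/
lemma numeric_params (hn : 2 ≤ n) {q : ℝ} (hq : 0 < q) (hq1 : q ≤ Real.exp (-1)) :
    ∃ δ d : ℕ, (n : ℝ) ^ 2 * q ^ (δ + 1) < 1 ∧ Param n q d ((Real.log n + 4) ^ 2) ∧
      (δ : ℝ) ≤ (Real.log n + 4) ^ 2 ∧
      ((Real.log n + 4) ^ 2 / q) ^ 2 ≤
        (Real.exp (30 * (-Real.log q / Real.sqrt (Real.log n)) +
          4 * (-Real.log q / Real.sqrt (Real.log n)) ^ 2)) ^ d := by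
  have hn0 : (0 : ℝ) < n := by
    have : 0 < n := by omega
    exact_mod_cast this
  have hN2 : Real.log 2 ≤ Real.log n :=
    Real.log_le_log (by norm_num) (by exact_mod_cast hn)
  have hl2 := Real.log_two_gt_d9
  have hNlow : (0.69 : ℝ) < Real.log n := by linarith
  have hN0 : 0 < Real.log n := by linarith
  have hl1 : 1 ≤ -Real.log q := by
    have h1 := Real.log_le_log hq hq1
    rw [Real.log_exp] at h1
    linarith
  have hqexp : q = Real.exp (-(-Real.log q)) := by
    rw [neg_neg, Real.exp_log hq]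
  have hnexp : (n : ℝ) = Real.exp (Real.log n) := by
    rw [Real.exp_log hn0]
  obtain ⟨δ, hδ, hδle⟩ := aux_delta hl1 hN0 hnexp hqexp
  obtain ⟨d, hd1, hdmin, hd2, hdN, hlow⟩ := aux_depth hl1 hNlow hnexp hqexp
  refine ⟨δ, d, hδ, ⟨hd1, hdmin, hd2, ?_⟩, ?_, aux_final hl1 hNlow hqexp hlow⟩
  · calc (d : ℝ) * Real.log n ≤ (Real.log n + 4) * Real.log n :=
          mul_le_mul_of_nonneg_right hdN hN0.le
      _ ≤ _ := by nlinarith
  · nlinarith

/-- The constant. -/
noncomputable def constD : ℝ := 839808 * Real.exp 15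

lemma constD_pos : 0 < constD := by
  unfold constD
  positivity

/-- The bound for `p_c`. -/
theorem pCrit_dense (hn : 2 ≤ n) (hV : Fintype.card V ≤ n) (hE : 1 ≤ numEdges H) {q : ℝ}
    (hqE : pExp n H ≤ q) (hq1 : q ≤ 1) :
    pCrit n H ≤ constD * q * Real.log n * Real.exp (19 * (Real.log q) ^ 2 / Real.log n) := by
  have hn0 : (0 : ℝ) < n := by
    have : 0 < n := by omega
    exact_mod_cast this
  have hN2 : Real.log 2 ≤ Real.log n :=
    Real.log_le_log (by norm_num) (by exact_mod_cast hn)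
  have hl2 := Real.log_two_gt_d9
  set N := Real.log n with hN
  have hN0 : 0 < N := by linarith
  obtain ⟨hp0, _, hp⟩ := pExp_mem (H := H) hV
  obtain ⟨hppos, hyp2⟩ := hyp_double hV hE hp0 hp
  have hq0 : 0 < q := lt_of_lt_of_le hppos hqE
  set q₁ := 3 * q with hq₁
  have hq₁0 : 0 < q₁ := by positivity
  have hyp1 : ∀ F : H.Subgraph, 1 ≤ expCopies n q₁ F.coe := fun F =>
    (hyp2 F).trans (expCopies_mono (by positivity) (by rw [hq₁]; linarith) _)
  have hexp1 : 0 ≤ Real.exp (19 * (Real.log q) ^ 2 / N) := (Real.exp_pos _).le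
  have hexp2 : 1 ≤ Real.exp (19 * (Real.log q) ^ 2 / N) := by
    apply Real.one_le_exp
    positivity
  by_cases hsmall : q₁ ≤ Real.exp (-1)
  · obtain ⟨δ, d, hδ, hP, hδM, hfin⟩ := numeric_params hn hq₁0 hsmall
    have hq₁1 : q₁ ≤ 1 := hsmall.trans (Real.exp_le_one_iff.mpr (by norm_num))
    set a := -Real.log q₁ / Real.sqrt N with ha
    set β := 30 * a + 4 * a ^ 2 with hβ
    set L := 2 * Real.exp β with hL
    have hL2 : 2 ≤ L := by
      have := Real.one_le_exp (x := β) (by
        have hlq : Real.log q₁ ≤ 0 := Real.log_nonpos hq₁0.le hq₁1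
        have : 0 ≤ a := div_nonneg (by linarith) (Real.sqrt_nonneg _)
        positivity)
      rw [hL]
      linarith
    have hL0 : 0 < L := by linarith
    have hLd : L / 2 = Real.exp β := by
      rw [hL]
      ring
    have hM0 : 0 < (N + 4) ^ 2 := by positivity
    have hbd : EmbBound H n (729 * (L * q₁)) := by
      intro Z _ F
      refine emb_bound (by omega) hq₁0 hq₁1 hV hyp1 hδ hP hM0 hδM hL2 ?_ F
      rw [hLd]
      exact hfin
    have h1 := pCrit_le_of_bound (by positivity) hV hbd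
    have hlr := log_edges_le hn hV hE
    have hlr0 : (0 : ℝ) ≤ (Nat.log 2 (numEdges H) : ℝ) + 1 := by positivity
    -- the exponent
    have hβle : β ≤ 15 + 19 * (Real.log q) ^ 2 / N := by
      have hr0 : 0 < Real.sqrt N := Real.sqrt_pos.mpr hN0
      have hrr : Real.sqrt N * Real.sqrt N = N := Real.mul_self_sqrt hN0.le
      set x := -Real.log q / Real.sqrt N with hx
      have hlq : Real.log q₁ ≤ 0 := Real.log_nonpos hq₁0.le hq₁1
      have hlqq : Real.log q ≤ Real.log q₁ := Real.log_le_log hq0 (by rw [hq₁]; linarith)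
      have ha0 : 0 ≤ a := div_nonneg (by linarith) hr0.le
      have hax : a ≤ x := by
        rw [ha, hx]
        exact div_le_div_of_nonneg_right (by linarith) hr0.le
      have hx2 : 19 * (Real.log q) ^ 2 / N = 19 * x ^ 2 := by
        rw [hx, div_pow, neg_sq, Real.sq_sqrt hN0.le]
        ring
      rw [hx2, hβ]
      nlinarith [sq_nonneg (x - 1)]
    have hβexp : Real.exp β ≤ Real.exp 15 * Real.exp (19 * (Real.log q) ^ 2 / N) := by
      rw [← Real.exp_add]
      exact Real.exp_le_exp.mpr hβle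
    calc pCrit n H ≤ 729 * (L * q₁) * (32 * ((Nat.log 2 (numEdges H) : ℝ) + 1)) := h1
      _ ≤ 729 * (L * q₁) * (32 * (6 * N)) := by
          apply mul_le_mul_of_nonneg_left _ (by positivity)
          linarith
      _ = 839808 * Real.exp β * q * N := by
          rw [hL, hq₁]
          ring
      _ ≤ 839808 * (Real.exp 15 * Real.exp (19 * (Real.log q) ^ 2 / N)) * q * N := by
          apply mul_le_mul_of_nonneg_right _ hN0.le
          apply mul_le_mul_of_nonneg_right _ hq0.le
          exact mul_le_mul_of_nonneg_left hβexp (by norm_num)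
      _ = _ := by
          unfold constD
          ring
  · push Not at hsmall
    have hPbd : BddBelow {p : ℝ | 0 ≤ p ∧ p ≤ 1 ∧
        1 / 2 ≤ gnpProb n p (fun G => 0 < G.copyCount H)} := ⟨0, fun p hp => hp.1⟩
    have h1 : pCrit n H ≤ 1 := csInf_le hPbd ⟨zero_le_one, le_rfl, gnp_one hV⟩
    have hexpm : (1 : ℝ) / 3 ≤ Real.exp (-1) := by
      rw [Real.exp_neg, inv_eq_one_div]
      exact one_div_le_one_div_of_le (Real.exp_pos 1) (by
        have := Real.exp_one_lt_d9
        linarith)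
    have hq9 : (1 : ℝ) / 9 ≤ q := by
      rw [hq₁] at hsmall
      linarith
    have h15 : (1 : ℝ) ≤ Real.exp 15 := Real.one_le_exp (by norm_num)
    have h2 : 1 ≤ constD * q * N := by
      unfold constD
      have h3 : (1 : ℝ) ≤ 839808 * Real.exp 15 := by linarith
      have h4 : (1 / 9 : ℝ) * (0.69 : ℝ) ≤ q * N := by
        apply mul_le_mul hq9 (by linarith) (by norm_num) hq0.le
      nlinarith
    have h3 : constD * q * N * 1 ≤ constD * q * N * Real.exp (19 * (Real.log q) ^ 2 / N) :=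
      mul_le_mul_of_nonneg_left hexp2 (by have := constD_pos; positivity)
    linarith

/-- The bound for `p_c` on a range of densities near one. -/
theorem pCrit_dense_range (a : ℝ) (ha : 0 < a) (hn : 2 ≤ n) (hV : Fintype.card V ≤ n)
    (hE : 1 ≤ numEdges H) (hra : Real.exp (-(a * Real.sqrt (Real.log n))) ≤ pExp n H) :
    pCrit n H ≤ (constD * Real.exp (19 * a ^ 2)) * pExp n H * Real.log n := by
  obtain ⟨hp0, hp1, hp⟩ := pExp_mem (H := H) hV
  have hN2 : Real.log 2 ≤ Real.log n :=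
    Real.log_le_log (by norm_num) (by exact_mod_cast hn)
  have hl2 := Real.log_two_gt_d9
  have hN0 : 0 < Real.log n := by linarith
  have h1 := pCrit_dense hn hV hE (le_refl (pExp n H)) hp1
  have hppos : 0 < pExp n H := lt_of_lt_of_le (Real.exp_pos _) hra
  refine h1.trans ?_
  have hlog : -(a * Real.sqrt (Real.log n)) ≤ Real.log (pExp n H) := by
    have := Real.log_le_log (Real.exp_pos _) hra
    rwa [Real.log_exp] at this
  have hlog0 : Real.log (pExp n H) ≤ 0 := Real.log_nonpos hp0 hp1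
  have hsq : (Real.log (pExp n H)) ^ 2 ≤ a ^ 2 * Real.log n := by
    have hr := Real.sq_sqrt hN0.le
    have h2 : (Real.log (pExp n H)) ^ 2 ≤ (a * Real.sqrt (Real.log n)) ^ 2 := by
      have h3 : 0 ≤ a * Real.sqrt (Real.log n) := by positivity
      nlinarith
    rwa [mul_pow, hr] at h2
  have hex : Real.exp (19 * (Real.log (pExp n H)) ^ 2 / Real.log n) ≤ Real.exp (19 * a ^ 2) := by
    apply Real.exp_le_exp.mpr
    rw [div_le_iff₀ hN0]
    nlinarith
  have hC := constD_pos
  calc constD * pExp n H * Real.log n * Real.exp (19 * (Real.log (pExp n H)) ^ 2 / Real.log n)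
      ≤ constD * pExp n H * Real.log n * Real.exp (19 * a ^ 2) :=
        mul_le_mul_of_nonneg_left hex (by positivity)
    _ = _ := by ring

end Vale.Agent.Lib.P064d
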