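import Vale.Agent.Lib.P064d.Codeg

/-!
A degeneracy order of the host graph.
-/

namespace Vale.Agent.Lib.P064d

open Finset SimpleGraph Vale.Agent.Lib.P064 Vale.Agent.Lib.P064k
open scoped Classical Nat

set_option linter.unusedSectionVars false
set_option linter.unusedVariables false

universe u v

variable {V : Type v} [Fintype V] {H : SimpleGraph V} {n : ℕ} {q : ℝ}

/-- Every nonempty set of vertices contains a vertex of low degree in it. -/
lemma exists_low (hq : 0 < q) (hq1 : q ≤ 1) (hn : 1 ≤ n)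
    (hyp : ∀ F : H.Subgraph, 1 ≤ expCopies n q F.coe) {δ : ℕ}
    (hδ : (n : ℝ) ^ 2 * q ^ (δ + 1) < 1) {S : Finset V} (hS : S.Nonempty) :
    ∃ u ∈ S, (S.filter (fun w => H.Adj u w)).card ≤ δ := by
  by_contra hcon
  push Not at hcon
  let G : SimpleGraph V :=
    { Adj := fun a b => H.Adj a b ∧ a ∈ S ∧ b ∈ S
      symm := ⟨fun a b h => ⟨h.1.symm, h.2.2, h.2.1⟩⟩
      loopless := ⟨fun a h => H.loopless.irrefl a h.1⟩ }
  have hG : ∀ a b, G.Adj a b ↔ H.Adj a b ∧ a ∈ S ∧ b ∈ S := fun a b => Iff.rfl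
  set E' : Finset (Sym2 V) := G.edgeFinset with hE'
  have hsum := G.sum_degrees_eq_twice_card_edges
  have hdeg : ∀ u ∈ S, δ + 1 ≤ G.degree u := by
    intro u hu
    have h1 := hcon u hu
    have h2 : S.filter (fun w => H.Adj u w) ⊆ G.neighborFinset u := by
      intro w hw
      rw [Finset.mem_filter] at hw
      rw [mem_neighborFinset]
      exact ⟨hw.2, hu, hw.1⟩
    have h3 := Finset.card_le_card h2
    rw [card_neighborFinset_eq_degree] at h3
    omega
  have h2e : S.card * (δ + 1) ≤ 2 * E'.card := by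
    rw [hE', ← hsum]
    calc S.card * (δ + 1) = ∑ _u ∈ S, (δ + 1) := by simp
      _ ≤ ∑ u ∈ S, G.degree u := Finset.sum_le_sum hdeg
      _ ≤ ∑ u, G.degree u := Finset.sum_le_sum_of_subset (Finset.subset_univ _)
  have hsub : ∀ e ∈ E', e ∈ H.edgeSet := by
    intro e he
    rw [hE', mem_edgeFinset] at he
    induction e using Sym2.ind with
    | _ a b => exact he.1
  have hone := one_le_of_edges hq hyp E' hsub
  have hv : (vertsOf E').card ≤ S.card := by
    refine Finset.card_le_card ?_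
    intro x hx
    obtain ⟨e, he, hxe⟩ := mem_vertsOf.mp hx
    rw [hE', mem_edgeFinset] at he
    induction e using Sym2.ind with
    | _ a b =>
      rcases Sym2.mem_iff.mp hxe with rfl | rfl
      · exact he.2.1
      · exact he.2.2
  have hn1 : (1 : ℝ) ≤ n := by exact_mod_cast hn
  have hone2 : 1 ≤ (n : ℝ) ^ S.card * q ^ E'.card :=
    hone.trans (mul_le_mul_of_nonneg_right (pow_le_pow_right₀ hn1 hv) (by positivity))
  have hsq : 1 ≤ ((n : ℝ) ^ S.card * q ^ E'.card) ^ 2 := one_le_pow₀ hone2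
  have hlt : ((n : ℝ) ^ 2 * q ^ (δ + 1)) ^ S.card < 1 :=
    pow_lt_one₀ (by positivity) hδ (Finset.card_pos.mpr hS).ne'
  have hle : ((n : ℝ) ^ S.card * q ^ E'.card) ^ 2 ≤ ((n : ℝ) ^ 2 * q ^ (δ + 1)) ^ S.card := by
    have h1 : ((n : ℝ) ^ S.card * q ^ E'.card) ^ 2 = (n : ℝ) ^ (2 * S.card) * q ^ (2 * E'.card) := by
      rw [mul_pow, ← pow_mul, ← pow_mul, mul_comm S.card 2, mul_comm E'.card 2]
    have h2 : ((n : ℝ) ^ 2 * q ^ (δ + 1)) ^ S.card = (n : ℝ) ^ (2 * S.card) * q ^ (S.card * (δ + 1)) := by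
      rw [mul_pow, ← pow_mul, ← pow_mul, mul_comm (δ + 1) S.card]
    rw [h1, h2]
    exact mul_le_mul_of_nonneg_left (pow_le_pow_of_le_one hq.le hq1 h2e) (by positivity)
  linarith

/-- A degeneracy order on a set of vertices. -/
lemma exists_rank_on (hq : 0 < q) (hq1 : q ≤ 1) (hn : 1 ≤ n)
    (hyp : ∀ F : H.Subgraph, 1 ≤ expCopies n q F.coe) {δ : ℕ}
    (hδ : (n : ℝ) ^ 2 * q ^ (δ + 1) < 1) :
    ∀ (k : ℕ) (S : Finset V), S.card = k → ∃ rk : V → ℕ, Set.InjOn rk S ∧
      ∀ u ∈ S, (S.filter (fun w => H.Adj u w ∧ rk u < rk w)).card ≤ δ := by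
  intro k
  induction k with
  | zero =>
    intro S hS
    rw [Finset.card_eq_zero] at hS
    subst hS
    exact ⟨fun _ => 0, by simp, by simp⟩
  | succ k ih =>
    intro S hS
    have hne : S.Nonempty := by
      rw [← Finset.card_pos]
      omega
    obtain ⟨u, hu, hlow⟩ := exists_low hq hq1 hn hyp hδ hne
    obtain ⟨rk', hinj, hrk⟩ := ih (S.erase u) (by rw [Finset.card_erase_of_mem hu]; omega)
    refine ⟨fun w => if w = u then 0 else rk' w + 1, ?_, ?_⟩
    · intro a ha b hb hab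
      simp only at hab
      by_cases hau : a = u
      · by_cases hbu : b = u
        · rw [hau, hbu]
        · rw [if_pos hau, if_neg hbu] at hab
          omega
      · by_cases hbu : b = u
        · rw [if_neg hau, if_pos hbu] at hab
          omega
        · rw [if_neg hau, if_neg hbu] at hab
          have h1 : rk' a = rk' b := by omega
          exact hinj (Finset.mem_coe.mpr (Finset.mem_erase.mpr ⟨hau, Finset.mem_coe.mp ha⟩))
            (Finset.mem_coe.mpr (Finset.mem_erase.mpr ⟨hbu, Finset.mem_coe.mp hb⟩)) h1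
    · intro x hx
      by_cases hxu : x = u
      · subst hxu
        refine le_trans (Finset.card_le_card ?_) hlow
        intro w hw
        rw [Finset.mem_filter] at hw ⊢
        exact ⟨hw.1, hw.2.1⟩
      · refine le_trans (Finset.card_le_card ?_) (hrk x (Finset.mem_erase.mpr ⟨hxu, hx⟩))
        intro w hw
        rw [Finset.mem_filter] at hw ⊢
        obtain ⟨h1, h2, h3⟩ := hw
        simp only [if_neg hxu] at h3
        have hwu : w ≠ u := by
          rintro rfl
          simp at h3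
        rw [if_neg hwu] at h3
        exact ⟨Finset.mem_erase.mpr ⟨hwu, h1⟩, h2, by omega⟩

/-- A degeneracy order of the host. -/
lemma exists_rank (hq : 0 < q) (hq1 : q ≤ 1) (hn : 1 ≤ n)
    (hyp : ∀ F : H.Subgraph, 1 ≤ expCopies n q F.coe) {δ : ℕ}
    (hδ : (n : ℝ) ^ 2 * q ^ (δ + 1) < 1) :
    ∃ rk : V → ℕ, Function.Injective rk ∧
      ∀ u, (Finset.univ.filter (fun w => H.Adj u w ∧ rk u < rk w)).card ≤ δ := by
  obtain ⟨rk, h1, h2⟩ := exists_rank_on hq hq1 hn hyp hδ _ Finset.univ rfl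
  refine ⟨rk, ?_, fun u => h2 u (Finset.mem_univ u)⟩
  intro a b hab
  exact h1 (by simp) (by simp) hab

end Vale.Agent.Lib.P064d
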